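import Vale.Agent.P098.K.Max

/-!
# P098 D/Bar  (helper names start with bar_)

The barrier `ω = exp (a (4 ‖x‖ ^ 2 - 1)) cos (μ ⟪e, x⟫)`, `μ = 4 a + d`.  With `E` the first factor and `t = ⟪e, x⟫` (`lap_mul`, `lap_comp`, `dot_eq`):
`lap ω = E (cos (μ t) (8 a d + 64 a ^ 2 ‖x‖ ^ 2 - μ ^ 2) - 16 a μ t sin (μ t))`; on the ellipsoid `4 ‖x‖ ^ 2 ≤ 1`, `|μ t| ≤ 1`.  `Real.one_sub_sq_div_two_le_cos`, `Real.add_one_le_exp`.
-/

set_option maxSynthPendingDepth 3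

open MeasureTheory Filter Topology Set Metric
open scoped ContDiff RealInnerProductSpace NNReal

noncomputable section

namespace Vale.Agent.P098

variable {d : ℕ}

/-- The barrier. -/
def bar (e : E d) (a : ℝ) (x : E d) : ℝ :=
  Real.exp (a * (4 * ‖x‖ ^ 2 - 1)) * Real.cos ((4 * a + d) * ⟪e, x⟫)

variable {e x : E d} {a s : ℝ}

theorem bar_chain {φ : ℝ → ℝ} {c : ℝ} {f : E d → ℝ} (h : HasDerivAt φ c (f x))
    (hf : DifferentiableAt ℝ f x) (v : E d) :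
    fderiv ℝ (fun y => φ (f y)) x v = c * fderiv ℝ f x v := by
  have h1 : HasFDerivAt (fun y => φ (f y)) (c • fderiv ℝ f x) x :=
    h.comp_hasFDerivAt x hf.hasFDerivAt
  rw [h1.fderiv]
  rfl

theorem bar_c1 : ContDiff ℝ ∞ fun y : E d => ‖y‖ ^ 2 := contDiff_norm_sq ℝ

theorem bar_e1 (a : ℝ) : ContDiff ℝ ∞ fun y : E d => Real.exp (a * (4 * ‖y‖ ^ 2 - 1)) :=
  (contDiff_const.mul ((contDiff_const.mul bar_c1).sub contDiff_const)).exp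

theorem bar_e2 (e : E d) (m : ℝ) : ContDiff ℝ ∞ fun y : E d => Real.cos (m * ⟪e, y⟫) :=
  (contDiff_const.mul (contDiff_inner' e)).cos

theorem bar_d1 (a c t : ℝ) : HasDerivAt (fun t : ℝ => c * Real.exp (a * (4 * t - 1)))
    (4 * a * c * Real.exp (a * (4 * t - 1))) t := by
  have h : HasDerivAt (fun t : ℝ => a * (4 * t - 1)) (a * (4 * 1)) t :=
    (((hasDerivAt_id t).const_mul 4).sub_const 1).const_mul a
  exact (h.exp.const_mul c).congr_deriv (by ring)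

theorem bar_d0 (a t : ℝ) : HasDerivAt (fun t : ℝ => Real.exp (a * (4 * t - 1)))
    (4 * a * Real.exp (a * (4 * t - 1))) t := by
  simpa only [one_mul, mul_one] using bar_d1 a 1 t

theorem bar_d2 (m t : ℝ) : HasDerivAt (fun t : ℝ => Real.cos (m * t))
    (-m * Real.sin (m * t)) t :=
  ((hasDerivAt_id t).const_mul m).cos.congr_deriv (by simp only [id]; ring)

theorem bar_d3 (m t : ℝ) : HasDerivAt (fun t : ℝ => -m * Real.sin (m * t))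
    (-m ^ 2 * Real.cos (m * t)) t :=
  (((hasDerivAt_id t).const_mul m).sin.const_mul (-m)).congr_deriv (by simp only [id]; ring)

theorem bar_nsq (x : E d) : ‖fderiv ℝ (fun y : E d => ‖y‖ ^ 2) x‖ ^ 2 = 4 * ‖x‖ ^ 2 := by
  rw [← sum_sq_bv, ← real_inner_self_eq_norm_sq, inner_eq_sum, Finset.mul_sum]
  refine Finset.sum_congr rfl fun i _ => ?_
  rw [fderiv_normSq, inner_bv]
  ring

theorem bar_formula (he : ‖e‖ = 1) (a m : ℝ) (x : E d) :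
    lap (fun y => Real.exp (a * (4 * ‖y‖ ^ 2 - 1)) * Real.cos (m * ⟪e, y⟫)) x =
      Real.exp (a * (4 * ‖x‖ ^ 2 - 1)) * (Real.cos (m * ⟪e, x⟫) *
        (8 * a * d + 64 * a ^ 2 * ‖x‖ ^ 2 - m ^ 2) -
          16 * a * (m * ⟪e, x⟫ * Real.sin (m * ⟪e, x⟫))) := by
  have l1 := lap_comp (f := fun y : E d => ‖y‖ ^ 2) (x := x) (bar_d0 a) (bar_d1 a (4 * a))
    (bar_c1.contDiffAt.of_le calc_le2)
  have l2 := lap_comp (f := fun y : E d => ⟪e, y⟫) (x := x) (bar_d2 m) (bar_d3 m)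
    ((contDiff_inner' e).contDiffAt.of_le calc_le2)
  rw [lap_normSq, bar_nsq] at l1
  rw [lap_inner, fderiv_inner, innerSL_apply_norm, he] at l2
  have l3 : dot (fun y : E d => Real.exp (a * (4 * ‖y‖ ^ 2 - 1)))
      (fun y => Real.cos (m * ⟪e, y⟫)) x =
      4 * a * Real.exp (a * (4 * ‖x‖ ^ 2 - 1)) * 2 * (-m * Real.sin (m * ⟪e, x⟫)) * ⟪e, x⟫ := by
    rw [dot, inner_eq_sum e x, Finset.mul_sum, ← inner_eq_sum e x]
    refine Finset.sum_congr rfl fun i _ => ?_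
    rw [bar_chain (f := fun y : E d => ‖y‖ ^ 2) (bar_d0 a _)
        (bar_c1.differentiable (by simp) x),
      bar_chain (f := fun y : E d => ⟪e, y⟫) (bar_d2 m _)
        ((contDiff_inner' e).differentiable (by simp) x),
      fderiv_normSq, fderiv_inner, innerSL_apply_apply, inner_bv, inner_bv]
    ring
  rw [lap_mul ((bar_e1 a).contDiffAt.of_le calc_le2) ((bar_e2 e m).contDiffAt.of_le calc_le2),
    l1, l2, l3]
  ring

theorem bar_ql (hx : Ql e 4 ((4 * a + d) ^ 2) x ≤ 1) :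
    4 * ‖x‖ ^ 2 ≤ 1 ∧ ((4 * a + d) * ⟪e, x⟫) ^ 2 ≤ 1 := by
  rw [Ql, ← mul_pow] at hx
  constructor
  · linarith [sq_nonneg ((4 * a + d) * ⟪e, x⟫)]
  · linarith [sq_nonneg ‖x‖]

theorem bar_cos {t : ℝ} (h : t ^ 2 ≤ 1) : 1 / 2 ≤ Real.cos t := by
  linarith [Real.one_sub_sq_div_two_le_cos (x := t)]

theorem bar_sin {t : ℝ} (h : t ^ 2 ≤ 1) : 0 ≤ t * Real.sin t := by
  have h1 := abs_le.1 (abs_le_one_iff_mul_self_le_one.2 (by rwa [← sq]) : |t| ≤ 1)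
  rcases le_total 0 t with h0 | h0
  · exact mul_nonneg h0
      (Real.sin_nonneg_of_nonneg_of_le_pi h0 (by linarith [Real.pi_gt_three, h1.2]))
  · exact mul_nonneg_of_nonpos_of_nonpos h0
      (Real.sin_nonpos_of_nonpos_of_neg_pi_le h0 (by linarith [Real.pi_gt_three, h1.1]))

theorem bar_tiny (ha : 1 ≤ a) (hx : ‖x‖ < 1 / (4 * (4 * a + d))) :
    ‖x‖ ≤ 1 / 16 ∧ (4 * a + d) * ‖x‖ ≤ 1 / 4 := by
  have hd : (0 : ℝ) ≤ d := Nat.cast_nonneg d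
  rw [lt_div_iff₀ (by positivity)] at hx
  constructor
  · nlinarith [norm_nonneg x]
  · linarith

theorem bar_contDiff (e : E d) (a : ℝ) : ContDiff ℝ ∞ (bar e a) :=
  (bar_e1 a).mul (bar_e2 e _)

theorem bar_even (he : ‖e‖ = 1) (a : ℝ) (x : E d) : bar e a (rf e x) = bar e a x := by
  rw [bar, bar, norm_rf he, inner_rf he, mul_neg, Real.cos_neg]

theorem Ql_norm (hx : Ql e 4 ((4 * a + d) ^ 2) x ≤ 1) : ‖x‖ ≤ 1 / 2 := by
  have h := (bar_ql hx).1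
  nlinarith [norm_nonneg x]

theorem Ql_small (he : ‖e‖ = 1) (ha : 1 ≤ a) (hx : ‖x‖ < 1 / (4 * (4 * a + d))) :
    Ql e 4 ((4 * a + d) ^ 2) x ≤ 1 := by
  obtain ⟨h1, h2⟩ := bar_tiny ha hx
  have hd : (0 : ℝ) ≤ d := Nat.cast_nonneg d
  have h3 : |⟪e, x⟫| ≤ ‖x‖ := by
    have h := abs_real_inner_le_norm e x
    rwa [he, one_mul] at h
  have h4 : ⟪e, x⟫ ^ 2 ≤ ‖x‖ ^ 2 := by
    rw [← sq_abs]
    exact pow_le_pow_left₀ (abs_nonneg _) h3 2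
  have h5 : ((4 * a + d) * ‖x‖) ^ 2 ≤ (1 / 4) ^ 2 :=
    pow_le_pow_left₀ (by positivity) h2 2
  have h6 : ‖x‖ ^ 2 ≤ (1 / 16) ^ 2 := pow_le_pow_left₀ (norm_nonneg _) h1 2
  have h7 := mul_le_mul_of_nonneg_left h4 (sq_nonneg (4 * a + d))
  rw [mul_pow] at h5
  rw [Ql]
  linarith

theorem bar_range (ha : 1 ≤ a) (hx : Ql e 4 ((4 * a + d) ^ 2) x ≤ 1) :
    0 ≤ bar e a x ∧ bar e a x ≤ 1 := by
  obtain ⟨h1, h2⟩ := bar_ql hx
  have h3 := bar_cos h2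
  refine ⟨mul_nonneg (Real.exp_pos _).le (by linarith), ?_⟩
  exact mul_le_one₀ (Real.exp_le_one_iff.2 (mul_nonpos_of_nonneg_of_nonpos (by linarith)
    (by linarith))) (by linarith) (Real.cos_le_one _)

theorem bar_lap (he : ‖e‖ = 1) (ha : 1 ≤ a) (hx : Ql e 4 ((4 * a + d) ^ 2) x ≤ 1) :
    lap (bar e a) x ≤ 0 := by
  obtain ⟨h1, h2⟩ := bar_ql hx
  have h3 := bar_cos h2
  have h4 := bar_sin h2
  have h5 : 8 * a * d + 64 * a ^ 2 * ‖x‖ ^ 2 - (4 * a + d) ^ 2 ≤ 0 := by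
    nlinarith [sq_nonneg (d : ℝ), mul_le_mul_of_nonneg_left h1 (sq_nonneg a)]
  refine (bar_formula he a (4 * a + d) x).trans_le
    (mul_nonpos_of_nonneg_of_nonpos (Real.exp_pos _).le ?_)
  have h6 := mul_nonpos_of_nonneg_of_nonpos (by linarith : 0 ≤ Real.cos ((4 * a + d) * ⟪e, x⟫)) h5
  have h7 := mul_nonneg (by linarith : 0 ≤ 16 * a) h4
  linarith

theorem bar_strip (ha : 1 ≤ a) (hx : Ql e 4 ((4 * a + d) ^ 2) x = 1) (h1 : |⟪e, x⟫| ≤ s)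
    (hs : a * (4 * a + d) ^ 2 * s ^ 2 ≤ 1 / 2) : 1 / 4 ≤ bar e a x := by
  have h3 := bar_cos (bar_ql hx.le).2
  have h4 : ⟪e, x⟫ ^ 2 ≤ s ^ 2 := by
    rw [← sq_abs]
    exact pow_le_pow_left₀ (abs_nonneg _) h1 2
  have h5 := mul_le_mul_of_nonneg_left h4 (by positivity : 0 ≤ a * (4 * a + d) ^ 2)
  rw [Ql] at hx
  have h6 : a * (4 * ‖x‖ ^ 2 - 1) = -(a * (4 * a + d) ^ 2 * ⟪e, x⟫ ^ 2) := by
    linear_combination a * hx
  have h7 : 1 / 2 ≤ Real.exp (a * (4 * ‖x‖ ^ 2 - 1)) := by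
    linarith [Real.add_one_le_exp (a * (4 * ‖x‖ ^ 2 - 1))]
  have h8 := mul_le_mul h7 h3 (by norm_num) (Real.exp_pos _).le
  rw [bar]
  linarith

theorem bar_small (ha : 1 ≤ a) (hx : ‖x‖ < 1 / (4 * (4 * a + d))) :
    bar e a x ≤ Real.exp (-(a / 2)) := by
  have h6 : ‖x‖ ^ 2 ≤ (1 / 16) ^ 2 := pow_le_pow_left₀ (norm_nonneg _) (bar_tiny ha hx).1 2
  refine (mul_le_of_le_one_right (Real.exp_pos _).le (Real.cos_le_one _)).trans
    (Real.exp_le_exp.2 ?_)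
  nlinarith

end Vale.Agent.P098
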