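import Vale.Agent.P098.B.Var
import Vale.Agent.P098.B.Inv
import Vale.Agent.P098.K.Est

/-!
# P098 D/Bg  (helper names start with bg_)

The setting of the improvement of flatness.  `Bg.strip`: mean value inequality for `P - ⟪e, ·⟫` on the unit ball.  `Bg.iso`: `Mn.iso`, `fderiv_iso`, `norm_fderiv_iso`, `lap_iso`, `⟪R.symm e, x⟫ = ⟪e, R x⟫`.
`bg_lip`: for `‖x‖ ≤ 1 / 2`, `s ≤ ⟪e, x⟫` the function `(u - P) / ε` is harmonic (`Mn.harm`, `Bg.pos`) and bounded by one (`Trap.abs`) on `ball x (s / 2)`; `harm_est` and the mean value inequality on the convex set.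
-/

set_option maxSynthPendingDepth 3

open MeasureTheory Filter Topology Set Metric
open scoped ContDiff RealInnerProductSpace NNReal

noncomputable section

namespace Vale.Agent.P098

variable {d : ℕ}

/-- `u` is trapped by the almost solution `P`. -/
structure Bg (e : E d) (u P : E d → ℝ) (σ ε : ℝ) : Prop where
  mn : Mn u
  unit : ‖e‖ = 1
  sm : ContDiff ℝ ∞ P
  hm : ∀ x, lap P x = 0
  gr : ∀ x, ‖x‖ ≤ 1 → ‖fderiv ℝ P x - innerSL ℝ e‖ ≤ σ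
  p0 : |P 0| ≤ σ
  e0 : 0 < ε
  e1 : ε ≤ σ
  df : ∀ x, ‖x‖ ≤ 1 → |P x| ≤ 30 * ε → |‖fderiv ℝ P x‖ ^ 2 - 1| ≤ σ * ε
  tp : Trap u P 1 ε

/-- A background jet. -/
structure Bk (e : E d) (B : Jet d) (k : ℕ) (C : ℝ) : Prop where
  unit : ‖e‖ = 1
  hj : HJ B
  c0 : B.1 = 0
  c1 : ∀ v, B.2.1 v = ⟪e, v⟫
  le : ‖B‖ ≤ C
  df : ∀ y, ‖y‖ ≤ 1 → |‖fderiv ℝ (ev B) y‖ ^ 2 - 1| ≤ C * (|ev B y| + ‖y‖ ^ k)

/-- Expansion of order three at the origin. -/
def Exp (u : E d → ℝ) (C r₀ : ℝ) : Prop := ∃ (l : E d) (j : Jet d), SJ l j ∧ ‖j‖ ≤ C ∧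
  ∀ r : ℝ, 0 < r → r ≤ r₀ → Trap u (ev j) r (C * r ^ (7 / 2 : ℝ))

variable {e : E d} {u P : E d → ℝ} {σ σ' ε s : ℝ} {x : E d}

theorem Bg.mono (h : Bg e u P σ ε) (hσ : σ ≤ σ') : Bg e u P σ' ε := by
  exact ⟨h.mn, h.unit, h.sm, h.hm, fun x hx => (h.gr x hx).trans hσ, h.p0.trans hσ, h.e0,
    h.e1.trans hσ, fun x hx h1 => (h.df x hx h1).trans (mul_le_mul_of_nonneg_right hσ h.e0.le),
    h.tp⟩
theorem Bg.strip (h : Bg e u P σ ε) (hx : ‖x‖ ≤ 1) : |P x - ⟪e, x⟫| ≤ 2 * σ := by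
  have h1 := (convex_closedBall (0 : E d) 1).norm_image_sub_le_of_norm_fderiv_le' (𝕜 := ℝ)
    (fun y _ => h.sm.differentiable (by simp) y)
    (fun y hy => h.gr y (mem_closedBall_zero_iff.1 hy)) (mem_closedBall_self zero_le_one)
    (mem_closedBall_zero_iff.2 hx)
  rw [sub_zero, innerSL_apply_apply, Real.norm_eq_abs, abs_le] at h1
  have h2 := mul_le_of_le_one_right (h.e0.le.trans h.e1) hx
  have h3 := abs_le.1 h.p0
  exact abs_le.2 ⟨by linarith, by linarith⟩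
theorem Bg.pos (h : Bg e u P σ ε) (hx : ‖x‖ < 1) (h1 : 3 * σ < ⟪e, x⟫) : 0 < u x := by
  linarith [(h.tp x hx).1, (abs_le.1 (h.strip hx.le)).1, h.e1]
theorem Bg.zero (h : Bg e u P σ ε) (hx : ‖x‖ < 1) (h1 : ⟪e, x⟫ ≤ -(3 * σ)) : u x = 0 := by
  exact le_antisymm ((h.tp x hx).2.trans
    (max_le (by linarith [(abs_le.1 (h.strip hx.le)).2, h.e1]) le_rfl)) (h.mn.nn x)
theorem Bg.iso (h : Bg e u P σ ε) (R : E d ≃ₗᵢ[ℝ] E d) :
    Bg (R.symm e) (fun x => u (R x)) (fun x => P (R x)) σ ε := by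
  refine ⟨h.mn.iso R, by rw [R.symm.norm_map, h.unit], h.sm.comp R.contDiff,
    fun x => by rw [lap_iso, h.hm], fun x hx => ?_, by rw [map_zero]; exact h.p0, h.e0, h.e1,
    fun x hx h1 => ?_, fun x hx => h.tp (R x) (by rwa [R.norm_map])⟩
  · refine ContinuousLinearMap.opNorm_le_bound _ (h.e0.le.trans h.e1) fun v => ?_
    have h1 := (fderiv ℝ P (R x) - innerSL ℝ e).le_of_opNorm_le
      (h.gr (R x) (by rwa [R.norm_map])) (R v)
    rw [R.norm_map, _root_.sub_apply, innerSL_apply_apply] at h1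
    rwa [_root_.sub_apply, innerSL_apply_apply, fderiv_iso, ← R.inner_map_map,
      R.apply_symm_apply]
  · rw [norm_fderiv_iso]
    exact h.df (R x) (by rwa [R.norm_map]) h1
theorem bg_lip (d : ℕ) : ∃ C : ℝ, 0 ≤ C ∧ ∀ (e : E d) (u P : E d → ℝ) (σ ε s : ℝ), Bg e u P σ ε →
    6 * σ ≤ s → s ≤ 1 → ∀ x y : E d, ‖x‖ ≤ 1 / 2 → ‖y‖ ≤ 1 / 2 → s ≤ ⟪e, x⟫ → s ≤ ⟪e, y⟫ →
      |(u x - P x) / ε - (u y - P y) / ε| ≤ C / s * ‖x - y‖ := by
  obtain ⟨C, hC, H⟩ := harm_est d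
  refine ⟨2 * C, by positivity, fun e u P σ ε s h h1 h2 x y hx hy hx' hy' => ?_⟩
  have hε := h.e0
  have hs : 0 < s := by linarith [h.e1]
  have k : ∀ z : E d, ‖z‖ ≤ 1 / 2 → s ≤ ⟪e, z⟫ → ∀ w ∈ ball z (s / 2), ‖w‖ < 1 ∧ 0 < u w :=
    fun z k1 k2 w hw => by
      rw [mem_ball, dist_eq_norm] at hw
      have k3 : ‖w‖ < 1 := by linarith [norm_sub_norm_le w z]
      have k4 := (abs_le.1 (abs_real_inner_le_norm e (w - z))).1
      rw [h.unit, one_mul, inner_sub_right] at k4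
      exact ⟨k3, h.pos k3 (by linarith)⟩
  have k1 : ∀ z : E d, ‖z‖ ≤ 1 / 2 → s ≤ ⟪e, z⟫ →
      Harm (fun w => ε⁻¹ * (u w - P w)) (ball z (s / 2)) := fun z k1 k2 =>
    ((h.mn.harm.mono fun w hw => (k z k1 k2 w hw).2).sub
      fun w _ => ⟨h.sm.contDiffAt, h.hm w⟩).const_mul _
  have h3 := Convex.norm_image_sub_le_of_norm_fderiv_le (𝕜 := ℝ)
    (f := fun w => ε⁻¹ * (u w - P w)) (s := closedBall 0 (1 / 2) ∩ {z | s ≤ ⟪e, z⟫})
    (C := 2 * C / s) (x := y) (y := x)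
    (fun z hz => (k1 z (mem_closedBall_zero_iff.1 hz.1) hz.2 z
      (mem_ball_self (half_pos hs))).1.differentiableAt (by simp))
    (fun z hz => (H _ z (s / 2) 1 (half_pos hs) (k1 z (mem_closedBall_zero_iff.1 hz.1) hz.2)
      fun w hw => by
        have k2 := k z (mem_closedBall_zero_iff.1 hz.1) hz.2 w hw
        rw [abs_mul, abs_of_pos (_root_.inv_pos.2 hε), inv_mul_le_iff₀ hε, mul_one]
        exact h.tp.abs k2.1 k2.2).trans_eq (by field_simp))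
    ((convex_closedBall _ _).inter (convex_halfSpace_ge (innerSL ℝ e).toLinearMap.isLinear s))
    ⟨mem_closedBall_zero_iff.2 hy, hy'⟩ ⟨mem_closedBall_zero_iff.2 hx, hx'⟩
  rwa [div_eq_inv_mul, div_eq_inv_mul]
theorem bg_inner (h : Mn u) (he : ‖e‖ = 1) (h0 : 0 < ε) (h1 : ε ≤ σ)
    (ht : Trap u (fun x => ⟪e, x⟫) 1 ε) : Bg e u (fun x => ⟪e, x⟫) σ ε := by
  have h2 := h0.le.trans h1
  refine ⟨h, he, contDiff_inner' e, lap_inner e, fun x _ => ?_, ?_, h0, h1, fun x _ _ => ?_, ht⟩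
  · rwa [fderiv_inner, sub_self, norm_zero]
  · rwa [inner_zero_right, abs_zero]
  · rw [fderiv_inner, innerSL_apply_norm, he, one_pow, sub_self, abs_zero]
    positivity
theorem ev_inner (e x : E d) : ev ((0, innerSL ℝ e, 0, 0) : Jet d) x = ⟪e, x⟫ := by
  simp [ev]
theorem bk_inner (he : ‖e‖ = 1) (k : ℕ) {C : ℝ} (hC : 1 ≤ C) :
    Bk e ((0, innerSL ℝ e, 0, 0) : Jet d) k C := by
  refine ⟨he, ⟨fun _ _ => rfl, fun _ _ _ => rfl, fun _ _ _ => rfl, tr_zero, fun _ => tr_zero⟩, rfl,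
    fun _ => rfl, norm_jet_le ?_ ?_ ?_ ?_, fun y _ => ?_⟩
  · exact abs_zero.trans_le (zero_le_one.trans hC)
  · exact ((innerSL_apply_norm ℝ e).trans he).trans_le hC
  · exact norm_zero.trans_le (zero_le_one.trans hC)
  · exact norm_zero.trans_le (zero_le_one.trans hC)
  · rw [funext (ev_inner e), fderiv_inner, innerSL_apply_norm, he, one_pow, sub_self, abs_zero]
    positivity

end Vale.Agent.P098
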