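import Vale.Agent.P098.D.Bg
import Vale.Agent.P098.B.Sub
import Vale.Agent.P098.B.Super

/-!
# P098 D/Cmp  (helper names start with cmp_)

Comparison for the linearized problem.  Let `ψ x = ⟪e, x⟫ + ‖x‖ ^ 2 - 1 ∈ [-2, 0]` on `closedBall 0 (1 / 2)`, `lap ψ = 2 d > 0` (`pos_of_unit`), `fderiv ψ x e = 1 + 2 ⟪e, x⟫`, `‖fderiv ψ x‖ ≤ 2`.
`cmp_lo`: `Mn.sub` with `v = P + ε (k + δ ψ)`.  If `u x = 0 < v x` then `|P x| ≤ 30 ε`, so `|⟪e, x⟫| ≤ 32 σ` (`Bg.strip`), `|fderiv k x e| ≤ M |⟪e, x⟫|` (`normal_le`), and with `q = fderiv (k + δ ψ) x`,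
`‖∇v‖ ^ 2 = ‖∇P‖ ^ 2 + 2 ε (q e + ∑ (∇P - e) q) + ε ^ 2 ‖q‖ ^ 2 ≥ 1 + ε (2 δ - K σ)` (`norm_add_sq_B1`, `sum_innerSL_bv`, `abs_sum_bv_le`).  `cmp_hi`: `Mn.super` with `v = P + ε (k - δ ψ)`; there `‖∇v‖ ^ 2 ≤ 1` and `lap v * u < 0`.
`normal_le`: `even_fderiv` at `x - ⟪e, x⟫ • e` and the mean value inequality for `y ↦ fderiv k y e` on the unit ball (`D2_apply`).
-/

set_option maxSynthPendingDepth 3

open MeasureTheory Filter Topology Set Metric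
open scoped ContDiff RealInnerProductSpace NNReal

noncomputable section

namespace Vale.Agent.P098

variable {d : ℕ}

theorem normal_le {e : E d} (he : ‖e‖ = 1) {k : E d → ℝ} (hk : ContDiff ℝ ∞ k)
    (hv : ∀ x, k (rf e x) = k x) {M : ℝ} (hM : ∀ x, ‖x‖ ≤ 1 → ‖D2 k x‖ ≤ M) {x : E d} (hx : ‖x‖ ≤ 1) :
    |fderiv ℝ k x e| ≤ M * |⟪e, x⟫| := by
  have h0 : ⟪e, x - ⟪e, x⟫ • e⟫ = 0 := by
    rw [inner_sub_right, inner_smul_right, real_inner_self_eq_norm_sq, he]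
    ring
  have h1 : ‖x - ⟪e, x⟫ • e‖ ≤ 1 := by
    refine (pow_le_one_iff_of_nonneg (norm_nonneg _) two_ne_zero).1 ?_
    rw [norm_sub_sq_real, inner_smul_right, norm_smul, he, real_inner_comm, mul_one,
      Real.norm_eq_abs, sq_abs]
    nlinarith [norm_nonneg x, sq_nonneg ⟪e, x⟫]
  have h2 := (convex_closedBall (0 : E d) 1).norm_image_sub_le_of_norm_fderiv_le (𝕜 := ℝ)
    (f := fderiv ℝ k) (fun y _ => calc_d1 (hk.contDiffAt.of_le calc_le2))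
    (fun y hy => hM y (mem_closedBall_zero_iff.1 hy)) (mem_closedBall_zero_iff.2 h1)
    (mem_closedBall_zero_iff.2 hx)
  rw [sub_sub_cancel, norm_smul, he, mul_one] at h2
  have h3 := (fderiv ℝ k x - fderiv ℝ k (x - ⟪e, x⟫ • e)).le_opNorm e
  rw [ContinuousLinearMap.sub_apply, even_fderiv he hv h0, sub_zero, he, mul_one] at h3
  exact h3.trans h2

/-- the perturbation -/
def cmp_psi (e x : E d) : ℝ := ⟪e, x⟫ + ‖x‖ ^ 2 - 1

theorem cmp_sm (e : E d) : ContDiff ℝ ∞ (cmp_psi e) :=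
  ((contDiff_inner' e).add (contDiff_norm_sq ℝ)).sub contDiff_const

theorem cmp_val {e x : E d} (he : ‖e‖ = 1) (hx : ‖x‖ ≤ 1 / 2) :
    -2 ≤ cmp_psi e x ∧ cmp_psi e x ≤ 0 := by
  have h1 := abs_real_inner_le_norm e x
  rw [he, one_mul] at h1
  obtain ⟨h2, h3⟩ := abs_le.1 h1
  unfold cmp_psi
  constructor <;> nlinarith [norm_nonneg x]

theorem cmp_der (e x : E d) : fderiv ℝ (cmp_psi e) x = innerSL ℝ e + 2 • innerSL ℝ x :=
  (((innerSL ℝ e).hasFDerivAt.add (hasStrictFDerivAt_norm_sq x).hasFDerivAt).sub_const 1).fderiv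

theorem cmp_lap (e x : E d) : lap (cmp_psi e) x = 2 * d := by
  have h1 : ContDiffAt ℝ 2 (fun y : E d => ⟪e, y⟫) x :=
    (contDiff_inner' e).contDiffAt.of_le calc_le2
  have h2 : ContDiffAt ℝ 2 (fun y : E d => ‖y‖ ^ 2) x := (contDiff_norm_sq ℝ).contDiffAt
  unfold cmp_psi
  rw [lap_sub (h1.add h2) contDiffAt_const, lap_add h1 h2, lap_inner, lap_normSq, lap_const]
  ring

theorem cmp_lapv {e : E d} {P k : E d → ℝ} (hP : ContDiff ℝ ∞ P) (hk : ContDiff ℝ ∞ k) (ε t : ℝ)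
    (x : E d) : lap (fun y => P y + ε * (k y + t * cmp_psi e y)) x =
      lap P x + ε * (lap k x + t * (2 * d)) := by
  have h1 : ContDiffAt ℝ 2 k x := hk.contDiffAt.of_le calc_le2
  have h2 : ContDiffAt ℝ 2 (cmp_psi e) x := (cmp_sm e).contDiffAt.of_le calc_le2
  have h3 := h1.add (contDiffAt_const (c := t).mul h2)
  rw [lap_add (hP.contDiffAt.of_le calc_le2) (contDiffAt_const.mul h3), lap_const_mul ε h3,
    lap_add h1 (contDiffAt_const.mul h2), lap_const_mul t h2, cmp_lap]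

theorem cmp_alg {e : E d} {p q : B1 d} {σ ε N : ℝ} (h0 : 0 < ε) (h1 : ε ≤ σ)
    (hp : ‖p - innerSL ℝ e‖ ≤ σ) (hq : ‖q‖ ≤ N) :
    |‖p + ε • q‖ ^ 2 - ‖p‖ ^ 2 - 2 * ε * q e| ≤ ε * σ * (2 * N + N ^ 2) := by
  have e1 : ∑ i, p (bv i) * (ε • q) (bv i) =
      ε * (q e + ∑ i, (p - innerSL ℝ e) (bv i) * q (bv i)) := by
    rw [← sum_innerSL_bv e q, ← Finset.sum_add_distrib, Finset.mul_sum]
    refine Finset.sum_congr rfl fun i _ => ?_
    simp only [ContinuousLinearMap.smul_apply, ContinuousLinearMap.sub_apply, smul_eq_mul]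
    ring
  have q0 := norm_nonneg q
  obtain ⟨a1, a2⟩ := abs_le.1 ((abs_sum_bv_le (p - innerSL ℝ e) q).trans
    (mul_le_mul hp hq q0 (by linarith)))
  have a3 : ‖q‖ ^ 2 ≤ N ^ 2 := pow_le_pow_left₀ q0 hq 2
  have a4 : ε * ‖q‖ ^ 2 ≤ σ * N ^ 2 := mul_le_mul h1 a3 (by positivity) (by linarith)
  have a5 : 0 ≤ ε * ‖q‖ ^ 2 := by positivity
  rw [norm_add_sq_B1, e1, norm_smul, mul_pow, Real.norm_eq_abs, sq_abs]
  generalize ∑ i, (p - innerSL ℝ e) (bv i) * q (bv i) = S at a1 a2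
  have e2 : ‖p‖ ^ 2 + 2 * (ε * (q e + S)) + ε ^ 2 * ‖q‖ ^ 2 - ‖p‖ ^ 2 - 2 * ε * q e =
      ε * (2 * S + ε * ‖q‖ ^ 2) := by ring
  rw [e2, abs_mul, abs_of_pos h0, mul_assoc]
  exact mul_le_mul_of_nonneg_left (abs_le.2 ⟨by linarith, by linarith⟩) h0.le

theorem cmp_key (d : ℕ) (M : ℝ) {δ : ℝ} (hδ : 0 < δ) (hδ1 : δ ≤ 1) : ∃ σ : ℝ, 0 < σ ∧
    ∀ (e : E d) (u P k : E d → ℝ) (ε t : ℝ) (x : E d), Bg e u P σ ε → ContDiff ℝ ∞ k →
      (∀ x, k (rf e x) = k x) → (∀ x, ‖x‖ ≤ 1 → ‖fderiv ℝ k x‖ ≤ M ∧ ‖D2 k x‖ ≤ M) → |t| ≤ δ →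
      ‖x‖ ≤ 1 / 2 → |P x| ≤ 30 * ε →
      |‖fderiv ℝ (fun y => P y + ε * (k y + t * cmp_psi e y)) x‖ ^ 2 - 1 - 2 * ε * t| ≤ ε * δ := by
  have K0 : 0 < 129 + 64 * |M| + (2 * (|M| + 2) + (|M| + 2) ^ 2) := by positivity
  refine ⟨δ / (129 + 64 * |M| + (2 * (|M| + 2) + (|M| + 2) ^ 2)), by positivity, ?_⟩
  have hσ := div_mul_cancel₀ δ K0.ne'
  generalize δ / (129 + 64 * |M| + (2 * (|M| + 2) + (|M| + 2) ^ 2)) = σ at hσ ⊢
  intro e u P k ε t x h hk hv hM ht hx hP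
  have x1 : ‖x‖ ≤ 1 := by linarith
  have M0 : 0 ≤ M := (norm_nonneg _).trans (hM x x1).1
  rw [abs_of_nonneg M0] at hσ
  have e0 := h.e0
  have e1 := h.e1
  have d1 : fderiv ℝ (fun y => P y + ε * (k y + t * cmp_psi e y)) x = fderiv ℝ P x +
      ε • (fderiv ℝ k x + t • (innerSL ℝ e + 2 • innerSL ℝ x)) := by
    rw [← cmp_der]
    exact ((h.sm.differentiable (by simp) x).hasFDerivAt.add (((hk.differentiable (by simp)
      x).hasFDerivAt.add (((cmp_sm e).differentiable (by simp) x).hasFDerivAt.const_mul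
        t)).const_mul ε)).fderiv
  have n1 : ‖innerSL ℝ e + 2 • innerSL ℝ x‖ ≤ 2 := by
    refine (norm_add_le _ _).trans ?_
    rw [two_smul]
    have := norm_add_le (innerSL ℝ x) (innerSL ℝ x)
    rw [innerSL_apply_norm] at this ⊢
    linarith [h.unit]
  have n2 : ‖fderiv ℝ k x + t • (innerSL ℝ e + 2 • innerSL ℝ x)‖ ≤ M + 2 := by
    refine (norm_add_le _ _).trans (add_le_add (hM x x1).1 ?_)
    rw [norm_smul]
    exact (mul_le_of_le_one_left (norm_nonneg _) (ht.trans hδ1)).trans n1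
  have a1 := cmp_alg e0 e1 (h.gr x x1) n2
  have a2 := h.df x x1 hP
  have a3 : |⟪e, x⟫| ≤ 32 * σ := by
    have := abs_sub_abs_le_abs_sub ⟪e, x⟫ (P x)
    rw [abs_sub_comm] at this
    linarith [h.strip x1]
  have a4 := (normal_le h.unit hk hv (fun y hy => (hM y hy).2) x1).trans
    (mul_le_mul_of_nonneg_left a3 M0)
  have a5 : |t * ⟪e, x⟫| ≤ 32 * σ := by
    rw [abs_mul]
    exact (mul_le_of_le_one_left (abs_nonneg _) (ht.trans hδ1)).trans a3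
  have e2 : (fderiv ℝ k x + t • (innerSL ℝ e + 2 • innerSL ℝ x)) e =
      fderiv ℝ k x e + t + 2 * (t * ⟪e, x⟫) := by
    simp only [ContinuousLinearMap.add_apply, ContinuousLinearMap.smul_apply, innerSL_apply_apply,
      real_inner_self_eq_norm_sq, h.unit, smul_eq_mul, nsmul_eq_mul, real_inner_comm e x]
    push_cast
    ring
  rw [e2, ← d1] at a1
  have a6 := mul_le_mul_of_nonneg_left a4 e0.le
  have a7 := mul_le_mul_of_nonneg_left a5 e0.le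
  rw [← abs_of_pos e0, ← abs_mul, abs_of_pos e0] at a6 a7
  obtain ⟨b1, b2⟩ := abs_le.1 a1
  obtain ⟨b3, b4⟩ := abs_le.1 a2
  obtain ⟨b5, b6⟩ := abs_le.1 a6
  obtain ⟨b7, b8⟩ := abs_le.1 a7
  rw [← hσ]
  exact abs_le.2 ⟨by linarith, by linarith⟩

theorem cmp_lo (d : ℕ) (M : ℝ) {δ : ℝ} (hδ : 0 < δ) (hδ1 : δ ≤ 1) : ∃ σ : ℝ, 0 < σ ∧
    ∀ (e : E d) (u P k : E d → ℝ) (ε : ℝ) (D : Set (E d)), Bg e u P σ ε → IsCompact D →
      (∀ x ∈ D, ‖x‖ ≤ 1 / 2) → ContDiff ℝ ∞ k → (∀ x, k (rf e x) = k x) →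
      (∀ x, ‖x‖ ≤ 1 → ‖fderiv ℝ k x‖ ≤ M ∧ ‖D2 k x‖ ≤ M) → (∀ x ∈ D, |k x| ≤ 20) →
      (∀ x ∈ D, 0 ≤ lap k x) → (∀ x ∈ frontier D, P x + ε * k x ≤ u x) →
      ∀ x ∈ D, P x + ε * (k x - 2 * δ) ≤ u x := by
  obtain ⟨σ, h0, hσ⟩ := cmp_key d M hδ hδ1
  refine ⟨σ, h0, fun e u P k ε D h hD h1 hk hv hM h2 h3 h4 x hx => ?_⟩
  have e0 := h.e0
  have d0 : (0 : ℝ) < d := Nat.cast_pos.2 (pos_of_unit h.unit)
  have ps := fun y hy => cmp_val h.unit (h1 y hy)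
  refine le_trans ?_ (h.mn.sub (v := fun y => P y + ε * (k y + δ * cmp_psi e y)) hD
    ((h.sm.add (contDiff_const.mul (hk.add (contDiff_const.mul (cmp_sm e))))).of_le calc_le2)
    (fun y hy => le_trans ?_ (h4 y hy)) (fun y hy _ => ?_)
    (Eventually.of_forall fun y hy a1 a2 => ?_) x hx)
  · have := mul_le_mul_of_nonneg_left (ps x hx).1 (mul_pos e0 hδ).le
    linarith
  · have := mul_le_mul_of_nonneg_left (ps y (hD.isClosed.frontier_subset hy)).2 (mul_pos e0 hδ).le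
    linarith
  · have := h3 y hy
    rw [cmp_lapv h.sm hk, h.hm, zero_add]
    positivity
  · have b1 := mul_le_mul_of_nonneg_left (ps y hy).2 (mul_pos e0 hδ).le
    have b2 := mul_le_mul_of_nonneg_left (abs_le.1 (h2 y hy)).2 e0.le
    have b3 := (h.tp y (by linarith [h1 y hy])).1
    have b4 := (abs_le.1 (hσ e u P k ε δ y h hk hv hM (abs_of_pos hδ).le (h1 y hy)
      (abs_le.2 ⟨by linarith, by linarith⟩))).1
    linarith [mul_pos e0 hδ]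

theorem cmp_hi (d : ℕ) (M : ℝ) {δ : ℝ} (hδ : 0 < δ) (hδ1 : δ ≤ 1) : ∃ σ : ℝ, 0 < σ ∧
    ∀ (e : E d) (u P k : E d → ℝ) (ε : ℝ) (D : Set (E d)), Bg e u P σ ε → IsCompact D →
      (∀ x ∈ D, ‖x‖ ≤ 1 / 2) → ContDiff ℝ ∞ k → (∀ x, k (rf e x) = k x) →
      (∀ x, ‖x‖ ≤ 1 → ‖fderiv ℝ k x‖ ≤ M ∧ ‖D2 k x‖ ≤ M) → (∀ x ∈ D, |k x| ≤ 20) →
      (∀ x ∈ D, lap k x ≤ 0) → (∀ x ∈ frontier D, u x ≤ max (P x + ε * k x) 0) →
      ∀ x ∈ D, u x ≤ max (P x + ε * (k x + 2 * δ)) 0 := by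
  obtain ⟨σ, h0, hσ⟩ := cmp_key d M hδ hδ1
  refine ⟨σ, h0, fun e u P k ε D h hD h1 hk hv hM h2 h3 h4 x hx => ?_⟩
  have e0 := h.e0
  have d0 : (0 : ℝ) < d := Nat.cast_pos.2 (pos_of_unit h.unit)
  have ps := fun y hy => cmp_val h.unit (h1 y hy)
  have lp : ∀ y ∈ D, lap (fun y => P y + ε * (k y + -δ * cmp_psi e y)) y < 0 := fun y hy => by
    rw [cmp_lapv h.sm hk, h.hm, zero_add]
    exact mul_neg_of_pos_of_neg e0 (by linarith [h3 y hy, mul_pos hδ d0])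
  refine (h.mn.super (v := fun y => P y + ε * (k y + -δ * cmp_psi e y)) hD
    ((h.sm.add (contDiff_const.mul (hk.add (contDiff_const.mul (cmp_sm e))))).of_le calc_le2)
    (fun y hy => (h4 y hy).trans (max_le_max_right _ ?_)) (fun y hy _ _ => lp y hy)
    (fun y hy a1 a2 => ?_) x hx).trans (max_le_max_right _ ?_)
  · have := mul_le_mul_of_nonneg_left (ps y (hD.isClosed.frontier_subset hy)).2 (mul_pos e0 hδ).le
    linarith
  · have b1 := mul_le_mul_of_nonneg_left (ps y hy).2 (mul_pos e0 hδ).le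
    have b2 := mul_le_mul_of_nonneg_left (abs_le.1 (h2 y hy)).1 e0.le
    have b3 := (lt_max_iff.1 (a2.trans_le (h.tp y (by linarith [h1 y hy])).2)).resolve_right
      (lt_irrefl _)
    have b4 := (abs_le.1 (hσ e u P k ε (-δ) y h hk hv hM (by rw [abs_neg, abs_of_pos hδ]) (h1 y hy)
      (abs_le.2 ⟨by linarith, by linarith⟩))).2
    linarith [mul_pos e0 hδ, mul_neg_of_neg_of_pos (lp y hy) a2]
  · have := mul_le_mul_of_nonneg_left (ps x hx).1 (mul_pos e0 hδ).le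
    linarith

end Vale.Agent.P098
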