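import Vale.Agent.P098.D.Bg

/-!
# P098 D/Coef  (helper names start with coef_)

Bounds for the coefficients.  `coef_est`: `harm_est3` for `ev T` on `ball c (r / 4)`, `c = (r / 2) • e`, with `HJ.D3`, `HJ.D2`, `HJ.fderiv`, back substitution.
`coef_trap`: on that ball `ev B x ≥ r / 4 - 2 C₁ r ^ 2 ≥ r / 8 > b`, so `u > 0` and `|ev T| ≤ 2 b` (`Trap.abs`, `ev_add`).
-/

set_option maxSynthPendingDepth 3

open MeasureTheory Filter Topology Set Metric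
open scoped ContDiff RealInnerProductSpace NNReal

noncomputable section

namespace Vale.Agent.P098

variable {d : ℕ}

/-- Coefficient bounds at scale `r`. -/
def CB (T : Jet d) (r b : ℝ) : Prop :=
  |T.1| ≤ b ∧ ‖T.2.1‖ ≤ b / r ∧ ‖T.2.2.1‖ ≤ b / r ^ 2 ∧ ‖T.2.2.2‖ ≤ b / r ^ 3

theorem coef_back {T : Jet d} {c : E d} {r p : ℝ} (hr : 0 < r) (hp : 0 ≤ p) (hT : HJ T)
    (hc : ‖c‖ = r / 2) (h0 : |ev T c| ≤ p * r ^ 3) (h1 : ‖fderiv ℝ (ev T) c‖ ≤ 4 * (p * r ^ 2))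
    (h2 : ‖D2 (ev T) c‖ ≤ 16 * (p * r)) (h3 : ‖D3 (ev T) c‖ ≤ 64 * p) :
    |T.1| ≤ 64 * (p * r ^ 3) ∧ ‖T.2.1‖ ≤ 64 * (p * r ^ 2) ∧ ‖T.2.2.1‖ ≤ 64 * (p * r) ∧
      ‖T.2.2.2‖ ≤ 64 * p := by
  rw [hT.D3] at h3
  rw [hT.D2] at h2
  rw [hT.fderiv] at h1
  have p1 : 0 ≤ p * r := by positivity
  have p2 : 0 ≤ p * r ^ 2 := by positivity
  have p3 : 0 ≤ p * r ^ 3 := by positivity
  have a3 : ‖T.2.2.2 c‖ ≤ 32 * (p * r) := by
    refine (T.2.2.2.le_opNorm c).trans ?_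
    rw [hc]
    nlinarith
  have a2 : ‖T.2.2.1‖ ≤ 48 * (p * r) := by
    have := norm_sub_le (T.2.2.1 + T.2.2.2 c) (T.2.2.2 c)
    rw [add_sub_cancel_right] at this
    linarith
  have b2 : ‖T.2.2.1 c‖ ≤ 24 * (p * r ^ 2) := by
    refine (T.2.2.1.le_opNorm c).trans ?_
    rw [hc]
    nlinarith
  have b3 : ‖(1 / 2 : ℝ) • T.2.2.2 c c‖ ≤ 8 * (p * r ^ 2) := by
    have := (T.2.2.2 c).le_opNorm c
    rw [hc] at this
    rw [norm_smul, Real.norm_eq_abs, abs_of_pos (by norm_num)]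
    nlinarith
  have a1 : ‖T.2.1‖ ≤ 36 * (p * r ^ 2) := by
    have k1 := norm_sub_le (T.2.1 + T.2.2.1 c + (1 / 2 : ℝ) • T.2.2.2 c c)
      ((1 / 2 : ℝ) • T.2.2.2 c c)
    have k2 := norm_sub_le (T.2.1 + T.2.2.1 c) (T.2.2.1 c)
    rw [add_sub_cancel_right] at k1 k2
    linarith
  have a0 := abs_ev_le ((0, T.2.1, T.2.2.1, T.2.2.2) : Jet d) hc.le
  have e : ev ((0, T.2.1, T.2.2.1, T.2.2.2) : Jet d) c = ev T c - T.1 := by
    simp only [ev]
    ring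
  have k1 : ‖T.2.1‖ * (r / 2) ≤ 18 * (p * r ^ 3) := by nlinarith
  have k2 : ‖T.2.2.1‖ * (r / 2) ^ 2 ≤ 12 * (p * r ^ 3) :=
    (mul_le_mul_of_nonneg_right a2 (by positivity)).trans_eq (by ring)
  have k3 : ‖T.2.2.2‖ * (r / 2) ^ 3 ≤ 8 * (p * r ^ 3) :=
    (mul_le_mul_of_nonneg_right h3 (by positivity)).trans_eq (by ring)
  rw [e] at a0
  simp only [abs_zero] at a0
  refine ⟨?_, by linarith, by linarith, h3⟩
  rw [abs_le] at a0 h0 ⊢
  constructor <;> linarith [a0.1, a0.2, h0.1, h0.2]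

theorem coef_est (d : ℕ) : ∃ C : ℝ, 1 ≤ C ∧ ∀ (T : Jet d) (e : E d) (r b : ℝ), HJ T → ‖e‖ = 1 → 0 < r →
    (∀ x, ‖x - (r / 2) • e‖ < r / 4 → |ev T x| ≤ b) → CB T r (C * b) := by
  obtain ⟨C, hC, h⟩ := harm_est3 d
  refine ⟨64 * C, by linarith, fun T e r b hT he hr hb => ?_⟩
  have h0 := hb ((r / 2) • e) (by rw [sub_self, norm_zero]; positivity)
  have hb0 : 0 ≤ b := (abs_nonneg _).trans h0
  obtain ⟨h1, h2, h3⟩ := h (ev T) ((r / 2) • e) (r / 4) b (by positivity) (hT.harm _)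
    fun y hy => hb y (mem_ball_iff_norm.1 hy)
  obtain ⟨k0, k1, k2, k3⟩ := coef_back (c := (r / 2) • e) (p := C * b / r ^ 3) hr (by positivity) hT
    (by rw [norm_smul, he, mul_one, Real.norm_eq_abs, abs_of_pos (by positivity)])
    (h0.trans (by rw [div_mul_cancel₀ _ (by positivity)]; nlinarith))
    (h1.trans_eq (by field_simp)) (h2.trans_eq (by field_simp; ring))
    (h3.trans_eq (by field_simp; ring))
  exact ⟨k0.trans_eq (by field_simp), k1.trans_eq (by field_simp), k2.trans_eq (by field_simp),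
    k3.trans_eq (by field_simp)⟩

theorem coef_trap (d : ℕ) : ∃ C : ℝ, 1 ≤ C ∧ ∀ (u : E d → ℝ) (e : E d) (B T : Jet d) (k : ℕ)
    (C₁ r b : ℝ), Bk e B k C₁ → HJ T → 0 < r → r ≤ 1 → 16 * C₁ * r ≤ 1 → 16 * b ≤ r →
      Trap u (ev B) r b → Trap u (ev (B + T)) r b → CB T r (C * b) := by
  obtain ⟨C, hC, h⟩ := coef_est d
  refine ⟨2 * C, by linarith, fun u e B T k C₁ r b hB hT hr hr1 h1 h2 t1 t2 => ?_⟩
  rw [show 2 * C * b = C * (2 * b) by ring]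
  refine h T e r (2 * b) hT hB.unit hr fun x hx => ?_
  have hc : ‖(r / 2) • e‖ = r / 2 := by
    rw [norm_smul, hB.unit, mul_one, Real.norm_eq_abs, abs_of_pos (by positivity)]
  have hx1 : ‖x‖ < r := by
    have := norm_add_le (x - (r / 2) • e) ((r / 2) • e)
    rw [sub_add_cancel] at this
    linarith
  have hi : r / 4 ≤ ⟪e, x⟫ := by
    have k1 := abs_real_inner_le_norm e (x - (r / 2) • e)
    rw [inner_sub_right, inner_smul_right, real_inner_self_eq_norm_sq, hB.unit] at k1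
    linarith [(abs_le.1 k1).1]
  have a0 := abs_ev_le ((0, 0, B.2.2.1, B.2.2.2) : Jet d) hx1.le
  have e1 : ev ((0, 0, B.2.2.1, B.2.2.2) : Jet d) x = ev B x - ⟪e, x⟫ := by
    simp only [ev, hB.c0, hB.c1, ContinuousLinearMap.zero_apply]
    ring
  rw [e1] at a0
  simp only [abs_zero, norm_zero, zero_mul, zero_add] at a0
  have n2 := (jet_le B).2.2.1.trans hB.le
  have n3 := (jet_le B).2.2.2.trans hB.le
  have k2 : ‖B.2.2.1‖ * r ^ 2 ≤ r / 16 :=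
    (mul_le_mul_of_nonneg_right n2 (by positivity)).trans (by nlinarith)
  have k3 : ‖B.2.2.2‖ * r ^ 3 ≤ r / 16 := by
    have r3 : r ^ 3 ≤ r ^ 2 := pow_le_pow_of_le_one hr.le hr1 (by norm_num)
    exact (mul_le_mul n3 r3 (by positivity) ((norm_nonneg _).trans n3)).trans (by nlinarith)
  have hu : 0 < u x := by linarith [(t1 x hx1).1, (abs_le.1 a0).1]
  have s1 := abs_le.1 (t1.abs hx1 hu)
  have s2 := abs_le.1 (t2.abs hx1 hu)
  rw [ev_add] at s2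
  rw [abs_le]
  constructor <;> linarith [s1.1, s1.2, s2.1, s2.2]

end Vale.Agent.P098
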