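import Vale.Agent.P098.D.Bg

/-!
# P098 D/CorrA  (helper names start with corra_)

The cubic correction.  `N v w = sqf M v w - M e e * M v w` is symmetric with `N e v = 0` (`sum_innerSL_bv` or `apply_eq_sum`), `c = tr N`,
`K a v w = -(⟪e, a⟫ N v w + ⟪e, v⟫ N a w + ⟪e, w⟫ N a v) + c ⟪e, a⟫ ⟪e, v⟫ ⟪e, w⟫` (`exists_sqf`, `exists_B3`, `norm_B3_le`, `abs_tr_le`, `norm_B2_le`); `∑ i, ⟪e, bv i⟫ * l (bv i) = l e`.
-/

set_option maxSynthPendingDepth 3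

open MeasureTheory Filter Topology Set Metric
open scoped ContDiff RealInnerProductSpace NNReal

noncomputable section

namespace Vale.Agent.P098

variable {d : ℕ}

theorem ej_normal {e : E d} {k : ℕ} {T : Jet d} (he : ‖e‖ = 1) (h : EJ e k T) (v : E d) :
    T.2.2.1 e v = T.2.2.1 e e * ⟪e, v⟫ := by
  obtain ⟨y, hy, e1⟩ := jet_dec he v
  conv_lhs => rw [e1]
  rw [map_add, map_smul, (h.parts he).2.1 y hy, zero_add, smul_eq_mul, mul_comm]
theorem corra_N {e : E d} (he : ‖e‖ = 1) {M : B2 d} (hs : ∀ v w, M v w = M w v)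
    (hn : ∀ v, M e v = M e e * ⟪e, v⟫) : ∃ N : B2 d, (∀ v w, N v w = sqf M v w - M e e * M v w) ∧
      (∀ v w, N v w = N w v) ∧ (∀ v, N e v = 0) ∧ ‖N‖ ≤ 2 * ‖M‖ ^ 2 := by
  obtain ⟨Q, hQ⟩ := exists_sqf M
  have hN : ∀ v w, (Q - M e e • M) v w = sqf M v w - M e e * M v w := fun v w => by
    rw [← hQ]
    rfl
  refine ⟨_, hN, fun v w => by rw [hN, hN, sqf_comm, hs v w], fun v => ?_,
    norm_B2_le (by positivity) fun v w => ?_⟩
  · have h1 : sqf M e v = M e e * ∑ i, innerSL ℝ e (bv i) * M v (bv i) := by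
      rw [sqf, Finset.mul_sum]
      exact Finset.sum_congr rfl fun i _ => by rw [hn (bv i), mul_assoc, innerSL_apply_apply]
    rw [hN, h1, sum_innerSL_bv, hs v e, sub_self]
  · have h1 := abs_B2_le M e e
    rw [he, mul_one, mul_one] at h1
    have h2 := mul_le_mul h1 (abs_B2_le M v w) (abs_nonneg _) (norm_nonneg _)
    rw [hN]
    refine (abs_sub _ _).trans ?_
    rw [abs_mul]
    linarith [abs_sqf_le M v w]
theorem corra_in {e : E d} (he : ‖e‖ = 1) (v : E d) : |⟪e, v⟫| ≤ ‖v‖ :=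
  (abs_real_inner_le_norm e v).trans_eq (by rw [he, one_mul])
theorem exists_corr {e : E d} (he : ‖e‖ = 1) {M : B2 d} (hs : ∀ v w, M v w = M w v) (ht : tr M = 0)
    (hn : ∀ v, M e v = M e e * ⟪e, v⟫) : ∃ (K : B3 d) (c : ℝ), HJ ((0, innerSL ℝ e, M, K) : Jet d) ∧
      ‖K‖ ≤ (6 + 2 * d) * ‖M‖ ^ 2 ∧ |c| ≤ 2 * d * ‖M‖ ^ 2 ∧
      ∀ v w, K e v w + sqf M v w - M e e * M v w = c * ⟪e, v⟫ * ⟪e, w⟫ := by
  obtain ⟨N, hN, s, z, b⟩ := corra_N he hs hn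
  have hee : ⟪e, e⟫ = 1 := by rw [real_inner_self_eq_norm_sq, he, one_pow]
  have hc : |tr N| ≤ 2 * d * ‖M‖ ^ 2 :=
    (abs_tr_le N).trans ((mul_le_mul_of_nonneg_left b d.cast_nonneg).trans_eq (by ring))
  obtain ⟨K, hK⟩ : ∃ K : B3 d, ∀ a v w, K a v w = -(⟪e, a⟫ * N v w + ⟪e, v⟫ * N a w +
      ⟪e, w⟫ * N a v) + tr N * ⟪e, a⟫ * ⟪e, v⟫ * ⟪e, w⟫ := by
    refine exists_B3 _ (fun v w => ⟨fun a a' => ?_, fun c a => ?_⟩)
      (fun v w => ⟨fun a a' => ?_, fun c a => ?_⟩) fun v w => ⟨fun a a' => ?_, fun c a => ?_⟩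
    all_goals
      simp only [inner_add_right, real_inner_smul_right, map_add, map_smul, _root_.add_apply,
        _root_.smul_apply, smul_eq_mul]
      ring
  refine ⟨K, tr N, ⟨hs, fun a v w => ?_, fun a v w => ?_, ht, fun a => ?_⟩,
    norm_B3_le (by positivity) fun a v w => ?_, hc, fun v w => ?_⟩
  · simp only [hK, s a v]
    ring
  · simp only [hK, s v w]
    ring
  · have h1 := sum_innerSL_bv e (N a)
    have h2 := sum_innerSL_bv e (innerSL ℝ e)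
    simp only [innerSL_apply_apply, s a e, z, hee] at h1 h2
    have h3 : tr (K a) = -(⟪e, a⟫ * ∑ i, N (bv i) (bv i) + 2 * ∑ i, ⟪e, bv i⟫ * N a (bv i)) +
        tr N * ⟪e, a⟫ * ∑ i, ⟪e, bv i⟫ * ⟪e, bv i⟫ := by
      simp only [Finset.mul_sum, ← Finset.sum_add_distrib, ← Finset.sum_neg_distrib]
      exact Finset.sum_congr rfl fun i _ => by rw [hK]; ring
    change tr (K a) = 0
    rw [h3, h1, h2, tr]
    ring
  · have h1 : ∀ x y z : E d, |⟪e, x⟫ * N y z| ≤ ‖x‖ * (2 * ‖M‖ ^ 2 * ‖y‖ * ‖z‖) := fun x y z => by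
      rw [abs_mul]
      exact mul_le_mul (corra_in he x) ((abs_B2_le N y z).trans (by gcongr)) (abs_nonneg _)
        (norm_nonneg _)
    have h2 : |tr N * ⟪e, a⟫ * ⟪e, v⟫ * ⟪e, w⟫| ≤ 2 * d * ‖M‖ ^ 2 * ‖a‖ * ‖v‖ * ‖w‖ := by
      simp only [abs_mul]
      gcongr <;> exact corra_in he _
    rw [hK]
    refine (abs_add_le _ _).trans ?_
    rw [abs_neg]
    linarith [abs_add_three (⟪e, a⟫ * N v w) (⟪e, v⟫ * N a w) (⟪e, w⟫ * N a v), h1 a v w, h1 v a w,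
      h1 w a v]
  · rw [hK, z, z, hN, hee]
    ring

end Vale.Agent.P098
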