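import Vale.Agent.P098.D.CorrA

/-!
# P098 D/CorrB  (helper names start with corrb_)

The defect of the corrected jet.  With `P = ev B y`, `t = ⟪e, y⟫`, `m = M e e`, `fderiv (ev B) y = e + M y + K y y / 2` (`HJ.fderiv`), `norm_add_sq_B1`, `sum_sq_bv`:
`‖∇P‖ ^ 2 - 1 = 2 m t + K e y y + sqf M y y + O(‖y‖ ^ 3) = 2 m P + c t ^ 2 + O(‖y‖ ^ 3)` and `t ^ 2 ≤ ‖y‖ |t| ≤ |P| + C ‖y‖ ^ 3`.  The last claim: `EJ.parts`, `HJ.add`.
-/

set_option maxSynthPendingDepth 3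

open MeasureTheory Filter Topology Set Metric
open scoped ContDiff RealInnerProductSpace NNReal

noncomputable section

namespace Vale.Agent.P098

variable {d : ℕ}

theorem corrb_mul {a b A B : ℝ} (ha : |a| ≤ A) (hb : |b| ≤ B) : |a * b| ≤ A * B := by
  rw [abs_mul]
  exact mul_le_mul ha hb (abs_nonneg _) ((abs_nonneg _).trans ha)

theorem corrb_df {e : E d} (he : ‖e‖ = 1) {M : B2 d} {K : B3 d} {c A : ℝ}
    (hj : HJ ((0, innerSL ℝ e, M, K) : Jet d)) (hn : ∀ v, M e v = M e e * ⟪e, v⟫)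
    (hc : ∀ v w, K e v w + sqf M v w - M e e * M v w = c * ⟪e, v⟫ * ⟪e, w⟫) (A1 : 1 ≤ A)
    (hM : ‖M‖ ≤ A) (hK : ‖K‖ ≤ A) (hA : |c| ≤ A) {y : E d} (hy : ‖y‖ ≤ 1) :
    |‖fderiv ℝ (ev ((0, innerSL ℝ e, M, K) : Jet d)) y‖ ^ 2 - 1| ≤
      4 * A ^ 2 * (|ev ((0, innerSL ℝ e, M, K) : Jet d) y| + ‖y‖ ^ 3) := by
  have y0 := norm_nonneg y
  have eP : ev ((0, innerSL ℝ e, M, K) : Jet d) y = ⟪e, y⟫ + M y y / 2 + K y y y / 6 := by
    simp [ev]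
  have e1 : ‖M y‖ ^ 2 = sqf M y y := by
    rw [← sum_sq_bv, sqf]
    simp only [sq]
  have e2 : M y e = M e e * ⟪e, y⟫ := (hj.s2 y e).trans (hn y)
  have e3 : K y y e = K e y y := (hj.s3' y y e).trans (hj.s3 y e y)
  have n1 : ‖M y‖ ≤ A * ‖y‖ := (M.le_opNorm y).trans (mul_le_mul_of_nonneg_right hM y0)
  have n2 : ‖(1 / 2 : ℝ) • K y y‖ ≤ A * ‖y‖ ^ 2 / 2 := by
    have := ((K y).le_opNorm y).trans (mul_le_mul_of_nonneg_right ((K.le_opNorm y).trans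
      (mul_le_mul_of_nonneg_right hK y0)) y0)
    rw [norm_smul, Real.norm_eq_abs, abs_of_pos one_half_pos]
    linarith
  have b1 := abs_le.1 ((abs_sum_bv_le (M y) ((1 / 2 : ℝ) • K y y)).trans
    (mul_le_mul n1 n2 (norm_nonneg _) (by positivity)))
  have b2 : ‖(1 / 2 : ℝ) • K y y‖ ^ 2 ≤ A ^ 2 * ‖y‖ ^ 3 := by
    refine (pow_le_pow_left₀ (norm_nonneg _) n2 2).trans ?_
    have : 0 ≤ A ^ 2 * ‖y‖ ^ 3 * (1 - ‖y‖ / 4) := mul_nonneg (by positivity) (by linarith)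
    linarith
  have m1 : |M e e| ≤ A := (abs_B2_le M e e).trans (by rw [he, mul_one, mul_one]; exact hM)
  have m2 : |M y y| ≤ A * ‖y‖ ^ 2 := (abs_B2_le M y y).trans (by
    rw [mul_assoc, ← sq]
    exact mul_le_mul_of_nonneg_right hM (by positivity))
  have m3 : |K y y y| ≤ A * ‖y‖ ^ 3 := (abs_B3_le K y y y).trans (by
    rw [show ‖K‖ * ‖y‖ * ‖y‖ * ‖y‖ = ‖K‖ * ‖y‖ ^ 3 by ring]
    exact mul_le_mul_of_nonneg_right hK (by positivity))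
  have t1 : |⟪e, y⟫| ≤ ‖y‖ := (abs_real_inner_le_norm e y).trans (by rw [he, one_mul])
  rw [hj.fderiv, add_assoc, norm_add_sq_B1, norm_add_sq_B1, sum_innerSL_bv, innerSL_apply_norm, he,
    e1, ContinuousLinearMap.add_apply, ContinuousLinearMap.smul_apply, e2, e3, smul_eq_mul]
  generalize ev ((0, innerSL ℝ e, M, K) : Jet d) y = P at eP ⊢
  have y3 : A * ‖y‖ ^ 3 ≤ A * ‖y‖ ^ 2 :=
    mul_le_mul_of_nonneg_left (pow_le_pow_of_le_one y0 hy (by norm_num)) (by linarith)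
  have t2 : |⟪e, y⟫| ≤ |P| + A * ‖y‖ ^ 2 :=
    abs_le.2 ⟨by linarith [neg_abs_le P, (abs_le.1 m2).2, (abs_le.1 m3).2, abs_nonneg (M y y)],
      by linarith [le_abs_self P, (abs_le.1 m2).1, (abs_le.1 m3).1, abs_nonneg (M y y)]⟩
  have t3 : |⟪e, y⟫ * ⟪e, y⟫| ≤ |P| + A * ‖y‖ ^ 3 := by
    refine (corrb_mul t1 t2).trans ?_
    have := mul_le_mul_of_nonneg_right hy (abs_nonneg P)
    linarith
  have c1 := abs_le.1 (corrb_mul hA t3)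
  have c2 := abs_le.1 (corrb_mul m1 (le_refl |P|))
  have c3 := abs_le.1 (corrb_mul m1 m3)
  have c4 : A * |P| ≤ A ^ 2 * |P| := mul_le_mul_of_nonneg_right (by nlinarith) (abs_nonneg P)
  have c5 : 0 ≤ A * |P| := by positivity
  have c6 : 0 ≤ A ^ 2 * ‖y‖ ^ 3 := by positivity
  have c7 : M e e * P = M e e * ⟪e, y⟫ + M e e * M y y / 2 + M e e * K y y y / 6 := by
    rw [eP]
    ring
  have c8 := sq_nonneg ‖(1 / 2 : ℝ) • K y y‖
  have c9 := hc y y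
  exact abs_le.2 ⟨by linarith [b1.1, c1.1, c2.1, c3.2], by linarith [b1.2, c1.2, c2.2, c3.1]⟩

theorem corr (d : ℕ) {C₀ : ℝ} (h : 1 ≤ C₀) : ∃ C₁ : ℝ, C₀ ≤ C₁ ∧ ∀ (e : E d) (T : Jet d), ‖e‖ = 1 →
    EJ e 2 T → ‖T‖ ≤ C₀ → ∃ K : B3 d, Bk e ((0, innerSL ℝ e, T.2.2.1, K) : Jet d) 3 C₁ ∧
      ∀ T' : Jet d, EJ e 3 T' → T'.1 = 0 → T'.2.1 = 0 → T'.2.2.1 = 0 →
        SJ e (((0, innerSL ℝ e, T.2.2.1, K) : Jet d) + T') := by
  have d0 : (0 : ℝ) ≤ d := Nat.cast_nonneg d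
  have a0 : C₀ ≤ C₀ ^ 2 := by nlinarith
  have a1 : 0 ≤ d * C₀ ^ 2 := by positivity
  have a2 : C₀ ≤ (6 + 2 * d) * C₀ ^ 2 := by linarith
  obtain ⟨A, hA⟩ : ∃ A, A = (6 + 2 * d) * C₀ ^ 2 := ⟨_, rfl⟩
  rw [← hA] at a2
  have a3 : A ≤ 4 * A ^ 2 := by nlinarith
  refine ⟨4 * A ^ 2, a2.trans a3, fun e T he hT hn => ?_⟩
  have hM : ‖T.2.2.1‖ ≤ C₀ := (jet_le T).2.2.1.trans hn
  have hM2 : ‖T.2.2.1‖ ^ 2 ≤ C₀ ^ 2 := pow_le_pow_left₀ (norm_nonneg _) hM 2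
  obtain ⟨K, c, hj, hK, hc, hE⟩ := exists_corr he hT.hj.s2 hT.hj.t2 (ej_normal he hT)
  have hK' : ‖K‖ ≤ A := hK.trans (hA ▸ mul_le_mul_of_nonneg_left hM2 (by positivity))
  have hc' : |c| ≤ A := (hc.trans (mul_le_mul_of_nonneg_left hM2 (by positivity))).trans (by
    linarith)
  refine ⟨K, ⟨he, hj, rfl, fun v => rfl, norm_jet_le ?_ ?_ (hM.trans (a2.trans a3))
    (hK'.trans a3), fun y hy => corrb_df he hj (ej_normal he hT) hE (h.trans a2) (hM.trans a2) hK'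
      hc' hy⟩, fun T' hT' h0 h1 h2 => ⟨hj.add hT'.hj, he, ?_, fun v => ?_, fun v => ?_,
        fun v w hv hw => ?_⟩⟩
  · rw [abs_zero]
    positivity
  · rw [innerSL_apply_norm, he]
    linarith
  · rw [Prod.fst_add, h0, add_zero]
  · simp [h1]
  · simp only [Prod.snd_add, Prod.fst_add, h2, add_zero]
    exact ej_normal he hT v
  · simp only [Prod.snd_add, Prod.fst_add, h2, add_zero, ContinuousLinearMap.add_apply,
      (hT'.parts he).2.2.1 v w hv hw]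
    rw [hE, hv, mul_zero, zero_mul]

end Vale.Agent.P098
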