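import Vale.Agent.P098.D.Coef

/-!
# P098 D/Def  (helper names start with def_)

The defect of `B + T` (pure algebra).  `p = fderiv (ev B) y = e + p'`, `‖p'‖ ≤ 2 C₁ r`, `q = fderiv (ev T) y`, `‖q‖ ≤ 3 b / r`, `|ev T y| ≤ 4 b` (`HJ.fderiv`, `abs_ev_le`), `‖p + q‖ ^ 2 = ‖p‖ ^ 2 + 2 (q e + ∑ p' q) + ‖q‖ ^ 2`,
`|q e| ≤ |⟪e, y⟫| * 3 b / r ^ 2` (`EJ.normal_le`), `|⟪e, y⟫| ≤ |ev B y| + 2 C₁ r ^ 2`, `|ev B y| ≤ 34 b`.
-/

set_option maxSynthPendingDepth 3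

open MeasureTheory Filter Topology Set Metric
open scoped ContDiff RealInnerProductSpace NNReal

noncomputable section

namespace Vale.Agent.P098

variable {d : ℕ}

theorem def_fd {j : Jet d} (h : HJ j) {y : E d} {r : ℝ} (hy : ‖y‖ ≤ r) :
    ‖fderiv ℝ (ev j) y - j.2.1‖ ≤ ‖j.2.2.1‖ * r + ‖j.2.2.2‖ * r ^ 2 := by
  have y0 := norm_nonneg y
  have k0 := norm_nonneg j.2.2.2
  have h1 : ‖j.2.2.1 y‖ ≤ ‖j.2.2.1‖ * r :=
    (j.2.2.1.le_opNorm y).trans (mul_le_mul_of_nonneg_left hy (norm_nonneg _))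
  have h2 : ‖j.2.2.2 y y‖ ≤ ‖j.2.2.2‖ * r ^ 2 := by
    refine ((j.2.2.2 y).le_opNorm y).trans
      ((mul_le_mul_of_nonneg_right (j.2.2.2.le_opNorm y) y0).trans ?_)
    rw [mul_assoc, ← sq]
    exact mul_le_mul_of_nonneg_left (pow_le_pow_left₀ y0 hy 2) k0
  rw [h.fderiv, add_assoc, add_sub_cancel_left]
  refine (norm_add_le _ _).trans ?_
  rw [norm_smul, Real.norm_of_nonneg (by norm_num)]
  linarith [norm_nonneg (j.2.2.2 y y)]

theorem def_add {B T : Jet d} (hB : HJ B) (hT : HJ T) (y : E d) :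
    fderiv ℝ (ev (B + T)) y = fderiv ℝ (ev B) y + fderiv ℝ (ev T) y := by
  rw [funext (ev_add B T)]
  exact fderiv_fun_add (((contDiff_ev B).differentiable (by simp)) y)
    (((contDiff_ev T).differentiable (by simp)) y)

theorem def_p {e y : E d} {B : Jet d} {k : ℕ} {C₁ r : ℝ} (hB : Bk e B k C₁) (hr : 0 < r)
    (hr1 : r ≤ 1) (hy : ‖y‖ ≤ r) : ‖fderiv ℝ (ev B) y - innerSL ℝ e‖ ≤ 2 * C₁ * r := by
  have e1 : innerSL ℝ e = B.2.1 := ContinuousLinearMap.ext fun v => (hB.c1 v).symm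
  obtain ⟨-, -, h2, h3⟩ := jet_le B
  have h4 : r ^ 2 ≤ r := by nlinarith
  rw [e1]
  refine (def_fd hB.hj hy).trans ?_
  linarith [mul_le_mul_of_nonneg_right (h2.trans hB.le) hr.le,
    mul_le_mul (h3.trans hB.le) h4 (sq_nonneg r) ((norm_nonneg B).trans hB.le)]

theorem def_q {y : E d} {T : Jet d} {r b : ℝ} (hT : HJ T) (hr : 0 < r) (hc : CB T r b)
    (hy : ‖y‖ ≤ r) : ‖fderiv ℝ (ev T) y‖ ≤ 3 * b / r := by
  have h1 : ‖T.2.2.1‖ * r ≤ b / r :=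
    (mul_le_mul_of_nonneg_right hc.2.2.1 hr.le).trans_eq (by field_simp)
  have h2 : ‖T.2.2.2‖ * r ^ 2 ≤ b / r :=
    (mul_le_mul_of_nonneg_right hc.2.2.2 (sq_nonneg r)).trans_eq (by field_simp)
  have h3 := norm_sub_norm_le (fderiv ℝ (ev T) y) T.2.1
  rw [mul_div_assoc]
  linarith [def_fd hT hy, hc.2.1]

theorem def_grad {e y : E d} {B T : Jet d} {k : ℕ} {C₁ r b : ℝ} (hB : Bk e B k C₁) (hT : HJ T)
    (hr : 0 < r) (hr1 : r ≤ 1) (hc : CB T r b) (hy : ‖y‖ ≤ r) :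
    ‖fderiv ℝ (ev (B + T)) y - innerSL ℝ e‖ ≤ 2 * C₁ * r + 3 * b / r := by
  rw [def_add hB.hj hT, add_sub_right_comm]
  exact (norm_add_le _ _).trans (add_le_add (def_p hB hr hr1 hy) (def_q hT hr hc hy))
theorem def_est {e y : E d} {B T : Jet d} {k : ℕ} {C₁ r b : ℝ} (hB : Bk e B k C₁) (hT : EJ e k T)
    (hr : 0 < r) (hr1 : r ≤ 1) (hc : CB T r b) (hy : ‖y‖ ≤ r) (h30 : |ev (B + T) y| ≤ 30 * b) :
    |‖fderiv ℝ (ev (B + T)) y‖ ^ 2 - 1| ≤ 60 * C₁ * b + C₁ * r ^ k + 220 * b ^ 2 / r ^ 2 := by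
  have b0 : 0 ≤ b := (abs_nonneg _).trans hc.1
  have C0 : 0 ≤ C₁ := (norm_nonneg B).trans hB.le
  have y0 := norm_nonneg y
  have r2 := pow_pos hr 2
  have hp := def_p hB hr hr1 hy
  have hq := def_q hT.hj hr hc hy
  have t1 : |ev T y| ≤ 4 * b := by
    linarith [abs_ev_le T hy, hc.1, (le_div_iff₀ hr).1 hc.2.1, (le_div_iff₀ r2).1 hc.2.2.1,
      (le_div_iff₀ (pow_pos hr 3)).1 hc.2.2.2]
  have t2 : |ev B y| ≤ 34 * b := by
    rw [eq_sub_of_add_eq (ev_add B T y).symm]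
    linarith [abs_sub (ev (B + T) y) (ev T y)]
  have t3 : |⟪e, y⟫| ≤ 34 * b + 2 * C₁ * r ^ 2 := by
    obtain ⟨-, -, h2, h3⟩ := jet_le B
    have h4 : r ^ 3 ≤ r ^ 2 := pow_le_pow_of_le_one hr.le hr1 (by norm_num)
    have h5 := abs_ev_le ((0, 0, B.2.2.1, B.2.2.2) : Jet d) hy
    have h6 : ⟪e, y⟫ = ev B y - ev ((0, 0, B.2.2.1, B.2.2.2) : Jet d) y := by
      simp only [ev, hB.c0, hB.c1, ContinuousLinearMap.zero_apply]
      ring
    simp only [abs_zero, norm_zero, zero_mul, zero_add] at h5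
    rw [h6]
    linarith [abs_sub (ev B y) (ev ((0, 0, B.2.2.1, B.2.2.2) : Jet d) y),
      mul_le_mul_of_nonneg_right (h2.trans hB.le) r2.le,
      mul_le_mul (h3.trans hB.le) h4 (pow_pos hr 3).le C0]
  have t4 : |fderiv ℝ (ev T) y e| ≤ 102 * (b ^ 2 / r ^ 2) + 6 * C₁ * b := by
    have h2 : ‖T.2.2.2‖ * r ≤ b / r ^ 2 :=
      (mul_le_mul_of_nonneg_right hc.2.2.2 hr.le).trans_eq (by field_simp)
    have h3 : ‖T.2.2.1‖ + 2 * ‖T.2.2.2‖ * r ≤ 3 * (b / r ^ 2) := by linarith [hc.2.2.1]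
    refine (hT.normal_le hB.unit hy).trans ((mul_le_mul t3 h3 (by positivity)
      (by positivity)).trans_eq ?_)
    field_simp
    ring
  have t5 := hB.df y (hy.trans hr1)
  have t6 : C₁ * (|ev B y| + ‖y‖ ^ k) ≤ C₁ * (34 * b + r ^ k) :=
    mul_le_mul_of_nonneg_left (add_le_add t2 (pow_le_pow_left₀ y0 hy k)) C0
  rw [def_add hB.hj hT.hj, norm_add_sq_B1]
  generalize fderiv ℝ (ev B) y = p at *
  generalize fderiv ℝ (ev T) y = q at *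
  have t7 : ∑ i, p (bv i) * q (bv i) = q e + ∑ i, (p - innerSL ℝ e) (bv i) * q (bv i) := by
    rw [← sum_innerSL_bv e q, ← Finset.sum_add_distrib]
    refine Finset.sum_congr rfl fun i _ => ?_
    rw [ContinuousLinearMap.sub_apply]
    ring
  have t8 : |∑ i, (p - innerSL ℝ e) (bv i) * q (bv i)| ≤ 6 * C₁ * b := by
    refine (abs_sum_bv_le _ _).trans ((mul_le_mul hp hq (norm_nonneg _)
      (by positivity)).trans_eq ?_)
    field_simp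
    ring
  have t9 : ‖q‖ ^ 2 ≤ 9 * (b ^ 2 / r ^ 2) :=
    (pow_le_pow_left₀ (norm_nonneg q) hq 2).trans_eq (by ring)
  have t10 : 0 ≤ b ^ 2 / r ^ 2 := by positivity
  have t11 := mul_nonneg C0 b0
  have t12 := sq_nonneg ‖q‖
  rw [t7, mul_div_assoc]
  rw [abs_le] at t4 t5 t8 ⊢
  constructor <;> linarith [t4.1, t4.2, t5.1, t5.2, t8.1, t8.2]

end Vale.Agent.P098
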