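import Vale.Agent.P098.D.Bg
import Vale.Agent.P098.D.Bar
import Vale.Agent.P098.K.Net
import Vale.Agent.P098.K.Poly

/-!
# P098 D/Fam  (helper names start with fam_)

A finite family of harmonic functions.  `exists_net` on `G = {Ql = 1, s ≤ ⟪e, x⟫}` with `L = C / s` (`bg_lip`) and error `δ / 2`; for `g` in the net let `g' x = g (x + (|⟪e, x⟫| - ⟪e, x⟫) • e)` (continuous, even, equal to `g` on `G`),
`exists_harm_approx` with error `δ / 2` gives `h`; `|h| ≤ 2` on the ellipsoid by `max_principle` for `± h` (`frontier_Ql`).  On `G` the function `(u - P) / ε` is bounded by one (`Bg.pos`, `Trap.abs`).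
-/

set_option maxSynthPendingDepth 3

open MeasureTheory Filter Topology Set Metric
open scoped ContDiff RealInnerProductSpace NNReal

noncomputable section

namespace Vale.Agent.P098

variable {d : ℕ}

theorem fam_one {e : E d} (he : ‖e‖ = 1) {b δ : ℝ} (hb : 0 ≤ b) (hδ : 0 < δ) (hδ1 : δ ≤ 1)
    {g : E d → ℝ} (hg : Continuous g) (h1 : ∀ x, |g x| ≤ 1) :
    ∃ h : E d → ℝ, (ContDiff ℝ ∞ h ∧ (∀ x, lap h x = 0) ∧ (∀ x, h (rf e x) = h x) ∧
      ∀ x, Ql e 4 b x ≤ 1 → |h x| ≤ 2) ∧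
      ∀ x, Ql e 4 b x = 1 → 0 ≤ ⟪e, x⟫ → |h x - g x| ≤ δ := by
  have hc : Continuous fun x : E d => g (x + (|⟪e, x⟫| - ⟪e, x⟫) • e) := by fun_prop
  obtain ⟨h, c1, c2, c3, c4⟩ := exists_harm_approx he (a := 4) (by norm_num) hb hc (fun x => by
    rw [inner_rf he, abs_neg, rf]
    congr 1
    module) hδ
  have hb2 : ∀ x, Ql e 4 b x = 1 → |h x| ≤ 2 := fun x hx => by
    have a1 := abs_le.1 (c4 x hx)
    have a2 := abs_le.1 (h1 (x + (|⟪e, x⟫| - ⟪e, x⟫) • e))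
    exact abs_le.2 ⟨by linarith, by linarith⟩
  have hK := isCompact_Ql e (a := 4) (by norm_num) hb
  have h2 : ContDiff ℝ 2 h := c1.of_le calc_le2
  refine ⟨h, ⟨c1, c2, c3, fun x hx => abs_le.2 ⟨?_, ?_⟩⟩, fun x hx h0 => ?_⟩
  · have := max_principle (pos_of_unit he) hK (f := fun y => -1 * h y) (contDiff_const.mul h2)
      (fun y _ => by rw [lap_const_mul _ h2.contDiffAt, c2, mul_zero]) (M := 2)
      (fun y hy => by linarith [(abs_le.1 (hb2 y (frontier_Ql e 4 b y hy))).1]) x hx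
    linarith
  · exact max_principle (pos_of_unit he) hK h2 (fun y _ => (c2 y).ge)
      (fun y hy => (abs_le.1 (hb2 y (frontier_Ql e 4 b y hy))).2) x hx
  · have := c4 x hx
    rwa [abs_of_nonneg h0, sub_self, zero_smul, add_zero] at this

theorem exists_fam {e : E d} (he : ‖e‖ = 1) {a s δ : ℝ} (ha : 1 ≤ a) (hs : 0 < s) (hs1 : s ≤ 1)
    (hδ : 0 < δ) (hδ1 : δ ≤ 1) : ∃ H : Set (E d → ℝ), H.Finite ∧
      (∀ h ∈ H, ContDiff ℝ ∞ h ∧ (∀ x, lap h x = 0) ∧ (∀ x, h (rf e x) = h x) ∧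
        ∀ x, Ql e 4 ((4 * a + d) ^ 2) x ≤ 1 → |h x| ≤ 2) ∧
      ∀ (u P : E d → ℝ) (σ ε : ℝ), Bg e u P σ ε → 6 * σ ≤ s → ∃ h ∈ H, ∀ x,
        Ql e 4 ((4 * a + d) ^ 2) x = 1 → s ≤ ⟪e, x⟫ → |(u x - P x) / ε - h x| ≤ δ := by
  obtain ⟨C, hC, hL⟩ := bg_lip d
  have hb : 0 ≤ (4 * a + d) ^ 2 := sq_nonneg _
  have hG : IsCompact {x : E d | Ql e 4 ((4 * a + d) ^ 2) x = 1 ∧ s ≤ ⟪e, x⟫} :=
    (isCompact_Ql e (a := 4) (by norm_num) hb).of_isClosed_subset
      ((isClosed_eq (continuous_Ql e _ _) continuous_const).inter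
        (isClosed_le continuous_const (contDiff_inner' e).continuous)) fun x hx => hx.1.le
  obtain ⟨F, hF, h1, h2⟩ := exists_net hG (div_nonneg hC hs.le) (half_pos hδ)
  have key : ∀ g : F, _ := fun g =>
    fam_one he hb (half_pos hδ) (by linarith) (h1 g.1 g.2).1 (h1 g.1 g.2).2
  choose T hT hT' using key
  have := hF.to_subtype
  refine ⟨range T, finite_range T, ?_, fun u P σ ε hB hσ => ?_⟩
  · rintro _ ⟨g, rfl⟩
    exact hT g
  · obtain ⟨g, hg, h3⟩ := h2 (fun x => (u x - P x) / ε) (fun x hx => by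
      have hn : ‖x‖ < 1 := (Ql_norm hx.1.le).trans_lt (by norm_num)
      have hp : 0 < u x := hB.pos hn (by linarith [hx.2, hB.e0, hB.e1])
      rw [abs_div, abs_of_pos hB.e0, div_le_one hB.e0]
      exact hB.tp.abs hn hp) fun x hx y hy =>
        hL e u P σ ε s hB hσ hs1 x y (Ql_norm hx.1.le) (Ql_norm hy.1.le) hx.2 hy.2
    refine ⟨T ⟨g, hg⟩, mem_range_self _, fun x hx hx' => ?_⟩
    have a1 := abs_le.1 (h3 x ⟨hx, hx'⟩)
    have a2 := abs_le.1 (hT' ⟨g, hg⟩ x hx (hs.le.trans hx'))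
    exact abs_le.2 ⟨by linarith [a1.1, a2.2], by linarith [a1.2, a2.1]⟩

end Vale.Agent.P098
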