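import Vale.Agent.P098.D.Lin

/-!
# P098 D/Imp  (helper names start with imp_)

Improvement of flatness.  `trunc_taylor`: `j = jet h` with the parts of degree above `k` replaced by zero (`ej_jet`, `EJ.parts`, `ej_of_parts`, `harm_est3` at `0`, `harm_taylor`; `r ≤ 1`, `‖y‖ ≤ 1`).
`exists_par`: `ρ = exp (-a / 16)`, `ρ ^ (k + β) ≥ ρ ^ 4 = exp (-a / 4)`, and `(4 a + d) ^ 4 exp (-c a) → 0` (`Real.tendsto_pow_mul_exp_neg_atTop_nhds_zero`).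
`improve`: `lin` with `δ = ρ ^ (k + β) / 16`, `r = 1 / (4 (4 a + d))`, `Trap.mono`, `Trap.congr`.
-/

set_option maxSynthPendingDepth 3

open MeasureTheory Filter Topology Set Metric
open scoped ContDiff RealInnerProductSpace NNReal

noncomputable section

namespace Vale.Agent.P098

variable {d : ℕ}

theorem imp_ej {e : E d} (he : ‖e‖ = 1) {J : Jet d} (h : EJ e 3 J) :
    EJ e 1 ((J.1, J.2.1, 0, 0) : Jet d) ∧ EJ e 2 ((J.1, J.2.1, J.2.2.1, 0) : Jet d) := by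
  obtain ⟨p1, p2, -, -⟩ := h.parts he
  exact ⟨ej_of_parts he ⟨fun _ _ => rfl, fun _ _ _ => rfl, fun _ _ _ => rfl, tr_zero,
      fun _ => tr_zero⟩ p1 (fun _ _ => rfl) (fun _ _ _ _ => rfl) rfl (fun _ => rfl) fun _ => rfl,
    ej_of_parts he ⟨h.hj.s2, fun _ _ _ => rfl, fun _ _ _ => rfl, h.hj.t2, fun _ => tr_zero⟩
      p1 p2 (fun _ _ _ _ => rfl) rfl (fun hk => absurd hk (by norm_num)) fun _ => rfl⟩

theorem imp_err {J : Jet d} {A B v : ℝ} {y : E d} (hy : ‖y‖ ≤ 1) (hB : 0 ≤ B) (h2 : ‖J.2.2.1‖ ≤ A)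
    (h3 : ‖J.2.2.2‖ ≤ A) (h : |v - ev J y| ≤ B * ‖y‖ ^ 4) :
    |v - ev ((J.1, J.2.1, 0, 0) : Jet d) y| ≤ (B + 2 * A) * ‖y‖ ^ 2 ∧
    |v - ev ((J.1, J.2.1, J.2.2.1, 0) : Jet d) y| ≤ (B + 2 * A) * ‖y‖ ^ 3 ∧
    |v - ev J y| ≤ (B + 2 * A) * ‖y‖ ^ 4 := by
  have y0 := norm_nonneg y
  have hA : 0 ≤ A := (norm_nonneg _).trans h2
  have q43 : ‖y‖ ^ 4 ≤ ‖y‖ ^ 3 := pow_le_pow_of_le_one y0 hy (by norm_num)
  have q32 : ‖y‖ ^ 3 ≤ ‖y‖ ^ 2 := pow_le_pow_of_le_one y0 hy (by norm_num)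
  have a2 : |J.2.2.1 y y| ≤ A * ‖y‖ ^ 2 := (abs_B2_le _ y y).trans (by
    rw [mul_assoc, ← sq]
    exact mul_le_mul_of_nonneg_right h2 (by positivity))
  have a3 : |J.2.2.2 y y y| ≤ A * ‖y‖ ^ 3 := (abs_B3_le _ y y y).trans (by
    rw [show ‖J.2.2.2‖ * ‖y‖ * ‖y‖ * ‖y‖ = ‖J.2.2.2‖ * ‖y‖ ^ 3 by ring]
    exact mul_le_mul_of_nonneg_right h3 (by positivity))
  have b1 := mul_le_mul_of_nonneg_left q43 hB
  have b2 := mul_le_mul_of_nonneg_left q32 hB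
  have b3 := mul_le_mul_of_nonneg_left q32 hA
  have c2 : 0 ≤ A * ‖y‖ ^ 2 := by positivity
  have c3 : 0 ≤ A * ‖y‖ ^ 3 := by positivity
  have c4 : 0 ≤ A * ‖y‖ ^ 4 := by positivity
  have e1 : ev ((J.1, J.2.1, 0, 0) : Jet d) y = ev J y - J.2.2.1 y y / 2 - J.2.2.2 y y y / 6 := by
    simp only [ev, zero_apply]
    ring
  have e2 : ev ((J.1, J.2.1, J.2.2.1, 0) : Jet d) y = ev J y - J.2.2.2 y y y / 6 := by
    simp only [ev, zero_apply]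
    ring
  obtain ⟨k1, k1'⟩ := abs_le.1 h
  obtain ⟨k2, k2'⟩ := abs_le.1 a2
  obtain ⟨k3, k3'⟩ := abs_le.1 a3
  rw [e1, e2]
  refine ⟨abs_le.2 ⟨by linarith, by linarith⟩, abs_le.2 ⟨by linarith, by linarith⟩,
    abs_le.2 ⟨by linarith, by linarith⟩⟩

theorem trunc_taylor (d : ℕ) : ∃ C : ℝ, 1 ≤ C ∧ ∀ (k : ℕ) (e : E d) (h : E d → ℝ) (r : ℝ), 1 ≤ k → k ≤ 3 →
    ‖e‖ = 1 → 0 < r → r ≤ 1 → Harm h (ball 0 r) → (∀ x, h (rf e x) = h x) →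
    (∀ x, ‖x‖ < r → |h x| ≤ 2) → ∃ j : Jet d, EJ e k j ∧ ‖j‖ ≤ C / r ^ 3 ∧
      ∀ y, ‖y‖ ≤ r / 2 → |h y - ev j y| ≤ C / r ^ 4 * ‖y‖ ^ (k + 1) := by
  obtain ⟨C₁, hC₁, h1⟩ := harm_est3 d
  obtain ⟨C₂, hC₂, h2⟩ := harm_taylor d
  refine ⟨C₂ * 2 + 2 * (C₁ * 2), by linarith, fun k e h r hk hk3 he hr hr1 hh hv hb => ?_⟩
  have hb' : ∀ y ∈ ball (0 : E d) r, |h y| ≤ 2 := fun y hy => hb y (mem_ball_zero_iff.1 hy)
  obtain ⟨a1, a2, a3⟩ := h1 h 0 r 2 hr hh hb'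
  have hJ := ej_jet he hr hh hv
  have m : ∀ (i j : ℕ) (c c' : ℝ), i ≤ j → 0 ≤ c → c ≤ c' → c / r ^ i ≤ c' / r ^ j :=
    fun i j c c' hij hc hcc => div_le_div₀ (hc.trans hcc) hcc (by positivity)
      (pow_le_pow_of_le_one hr.le hr1 hij)
  have n0 : |(jet h).1| ≤ (C₂ * 2 + 2 * (C₁ * 2)) / r ^ 3 := by
    refine (hb 0 (by rwa [norm_zero])).trans ?_
    have := m 0 3 2 (C₂ * 2 + 2 * (C₁ * 2)) (by norm_num) (by norm_num) (by linarith)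
    rwa [pow_zero, div_one] at this
  have n1 : ‖(jet h).2.1‖ ≤ (C₂ * 2 + 2 * (C₁ * 2)) / r ^ 3 := by
    refine a1.trans ?_
    have := m 1 3 (C₁ * 2) (C₂ * 2 + 2 * (C₁ * 2)) (by norm_num) (by linarith) (by linarith)
    rwa [pow_one] at this
  have n2 : ‖(jet h).2.2.1‖ ≤ (C₂ * 2 + 2 * (C₁ * 2)) / r ^ 3 :=
    a2.trans (m 2 3 _ _ (by norm_num) (by linarith) (by linarith))
  have n3 : ‖(jet h).2.2.2‖ ≤ (C₂ * 2 + 2 * (C₁ * 2)) / r ^ 3 :=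
    a3.trans (m 3 3 _ _ le_rfl (by linarith) (by linarith))
  have nn : 0 ≤ (C₂ * 2 + 2 * (C₁ * 2)) / r ^ 3 := (abs_nonneg _).trans n0
  have z2 : ‖(0 : B2 d)‖ ≤ (C₂ * 2 + 2 * (C₁ * 2)) / r ^ 3 := norm_zero.trans_le nn
  have z3 : ‖(0 : B3 d)‖ ≤ (C₂ * 2 + 2 * (C₁ * 2)) / r ^ 3 := norm_zero.trans_le nn
  have key := fun y (hy : ‖y‖ ≤ r / 2) => imp_err (J := jet h) (A := C₁ * 2 / r ^ 4)
    (B := C₂ * 2 / r ^ 4) (v := h y) (y := y) (by linarith) (by positivity)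
    (a2.trans (m 2 4 _ _ (by norm_num) (by linarith) le_rfl))
    (a3.trans (m 3 4 _ _ (by norm_num) (by linarith) le_rfl))
    ((h2 h r 2 hr hh hb' y hy).trans_eq (by rw [div_pow]; ring))
  have ec : (C₂ * 2 + 2 * (C₁ * 2)) / r ^ 4 = C₂ * 2 / r ^ 4 + 2 * (C₁ * 2 / r ^ 4) := by ring
  rw [ec]
  interval_cases k
  · exact ⟨_, (imp_ej he hJ).1, norm_jet_le n0 n1 z2 z3, fun y hy => (key y hy).1⟩
  · exact ⟨_, (imp_ej he hJ).2, norm_jet_le n0 n1 n2 z3, fun y hy => (key y hy).2.1⟩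
  · exact ⟨_, hJ, norm_jet_le n0 n1 n2 n3, fun y hy => (key y hy).2.2⟩

theorem imp_lim (d : ℕ) {c : ℝ} (hc : 0 < c) (K : ℝ) (hK : 0 ≤ K) :
    ∃ a : ℝ, 1 ≤ a ∧ K * (4 * (4 * a + d)) ^ 4 * Real.exp (-(c * a)) ≤ 1 := by
  have h1 : Tendsto (fun a : ℝ => K * (20 / c) ^ 4 * ((c * a) ^ 4 * Real.exp (-(c * a)))) atTop
      (𝓝 (K * (20 / c) ^ 4 * 0)) :=
    ((Real.tendsto_pow_mul_exp_neg_atTop_nhds_zero 4).comp
      (tendsto_id.const_mul_atTop hc)).const_mul _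
  rw [mul_zero] at h1
  obtain ⟨a, h2, h3, h4⟩ := ((h1.eventually (gt_mem_nhds one_pos)).and
    ((eventually_ge_atTop (1 : ℝ)).and (eventually_ge_atTop (d : ℝ)))).exists
  refine ⟨a, h3, le_trans ?_ h2.le⟩
  have e : K * (20 / c) ^ 4 * ((c * a) ^ 4 * Real.exp (-(c * a))) =
      K * (20 * a) ^ 4 * Real.exp (-(c * a)) := by field_simp
  rw [e]
  have h5 : (4 * (4 * a + d)) ^ 4 ≤ (20 * a) ^ 4 :=
    pow_le_pow_left₀ (by positivity) (by linarith) 4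
  exact mul_le_mul_of_nonneg_right (mul_le_mul_of_nonneg_left h5 hK) (Real.exp_pos _).le

theorem exists_par (d k : ℕ) (hk : k ≤ 3) {β C : ℝ} (hβ : 0 < β) (hβ1 : β < 1) (hC : 1 ≤ C) :
    ∃ a ρ : ℝ, 1 ≤ a ∧ 0 < ρ ∧ ρ ≤ 1 / (4 * (4 * a + d)) / 2 ∧
      12 * Real.exp (-(a / 2)) ≤ ρ ^ ((k : ℝ) + β) / 16 ∧
      C / (1 / (4 * (4 * a + d))) ^ 4 * ρ ^ (k + 1) ≤ ρ ^ ((k : ℝ) + β) / 16 := by
  obtain ⟨a, ha, h⟩ := imp_lim d (c := (1 - β) / 16) (by linarith) (192 * C) (by linarith)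
  have hd : (0 : ℝ) ≤ d := Nat.cast_nonneg d
  have hk' : (k : ℝ) ≤ 3 := by exact_mod_cast hk
  obtain ⟨Q, hQ⟩ : ∃ Q : ℝ, Q = 4 * (4 * a + d) := ⟨_, rfl⟩
  rw [← hQ] at h
  have hQ1 : 1 ≤ Q := by linarith
  have hQ4 : Q ≤ Q ^ 4 := le_self_pow₀ hQ1 (by norm_num)
  obtain ⟨w, hw⟩ : ∃ w : ℝ, w = Real.exp (-((1 - β) / 16 * a)) := ⟨_, rfl⟩
  rw [← hw] at h
  have w0 : 0 < w := hw ▸ Real.exp_pos _
  have h1 : Q ^ 4 * w ≤ C * (Q ^ 4 * w) := le_mul_of_one_le_left (by positivity) hC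
  have h2 : Q * w ≤ Q ^ 4 * w := mul_le_mul_of_nonneg_right hQ4 w0.le
  have h3 : w ≤ Q * w := le_mul_of_one_le_left w0.le hQ1
  refine ⟨a, Real.exp (-(a / 16)), ha, Real.exp_pos _, ?_, ?_, ?_⟩
  · have h4 : Real.exp (-(a / 16)) ≤ w := by
      rw [hw, Real.exp_le_exp]
      nlinarith
    rw [← hQ, div_div, le_div_iff₀ (by positivity)]
    have := mul_le_mul_of_nonneg_left h4 (by linarith : 0 ≤ Q)
    linarith
  · rw [← Real.exp_mul]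
    have h4 : Real.exp (-(a / 2)) ≤ w * Real.exp (-(a / 16) * ((k : ℝ) + β)) := by
      rw [hw, ← Real.exp_add, Real.exp_le_exp]
      nlinarith
    have h5 : 192 * w ≤ 1 := by linarith
    have h6 := mul_le_mul_of_nonneg_right h5 (Real.exp_pos (-(a / 16) * ((k : ℝ) + β))).le
    linarith
  · rw [← Real.exp_mul, ← hQ, ← Real.exp_nat_mul]
    have h4 : Real.exp (((k + 1 : ℕ) : ℝ) * -(a / 16)) =
        w * Real.exp (-(a / 16) * ((k : ℝ) + β)) := by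
      rw [hw, ← Real.exp_add]
      congr 1
      push_cast
      ring
    have h5 : C / (1 / Q) ^ 4 = C * Q ^ 4 := by field_simp
    have h6 : 16 * (C * (Q ^ 4 * w)) ≤ 1 := by
      have : 0 ≤ C * (Q ^ 4 * w) := by positivity
      linarith
    have h7 := mul_le_mul_of_nonneg_right h6 (Real.exp_pos (-(a / 16) * ((k : ℝ) + β))).le
    rw [h4, h5]
    linarith

theorem improve (d : ℕ) {k : ℕ} (hk : 1 ≤ k) (hk3 : k ≤ 3) {β : ℝ} (hβ : 0 < β) (hβ1 : β < 1) :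
    ∃ ρ σ C₀ : ℝ, 0 < ρ ∧ ρ ≤ 1 / 2 ∧ 0 < σ ∧ 1 ≤ C₀ ∧ ∀ (e : E d) (u P : E d → ℝ) (ε : ℝ),
      Bg e u P σ ε → ∃ j : Jet d, EJ e k j ∧ ‖j‖ ≤ C₀ ∧
        Trap u (fun x => P x + ε * ev j x) ρ (ε * ρ ^ ((k : ℝ) + β) / 4) := by
  obtain ⟨C, hC, hT⟩ := trunc_taylor d
  obtain ⟨a, ρ, ha, hρ, h1, h2, h3⟩ := exists_par d k hk3 hβ hβ1 hC
  have hδ : 0 < ρ ^ ((k : ℝ) + β) / 16 := by positivity
  obtain ⟨σ, hσ, hl⟩ := lin d ha hδ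
  have hd : (0 : ℝ) ≤ d := Nat.cast_nonneg d
  obtain ⟨r, hr⟩ : ∃ r : ℝ, r = 1 / (4 * (4 * a + d)) := ⟨_, rfl⟩
  have r0 : 0 < r := by rw [hr]; positivity
  have r1 : r ≤ 1 := by
    rw [hr, div_le_one (by positivity)]
    linarith
  rw [← hr] at h1 h3 hl
  refine ⟨ρ, σ, C / r ^ 3, hρ, by linarith, hσ, ?_, fun e u P ε hB => ?_⟩
  · rw [le_div_iff₀ (by positivity)]
    have := pow_le_one₀ (n := 3) r0.le r1
    linarith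
  obtain ⟨h, s1, s2, s3, s4, s5⟩ := hl e u P ε hB
  obtain ⟨j, j1, j2, j3⟩ := hT k e h r hk hk3 hB.unit r0 r1
    (fun x _ => ⟨s1.contDiffAt, s2 x⟩) s3 s4
  refine ⟨j, j1, j2, ?_⟩
  have e0 := hB.e0
  have t1 := (s5.mono (s := ρ) (by linarith) le_rfl).congr (Q := fun x => P x + ε * ev j x)
    (δ := ε * (ρ ^ ((k : ℝ) + β) / 16)) fun x hx => by
      rw [show P x + ε * h x - (P x + ε * ev j x) = ε * (h x - ev j x) by ring, abs_mul,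
        abs_of_pos e0]
      refine mul_le_mul_of_nonneg_left ((j3 x (by linarith)).trans (le_trans ?_ h3)) e0.le
      have := hx.le
      gcongr
  refine t1.mono le_rfl ?_
  have h4 := mul_le_mul_of_nonneg_left h2 e0.le
  have h5 := mul_pos e0 hδ
  linarith

end Vale.Agent.P098
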