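import Vale.Agent.P098.D.Imp

/-!
# P098 D/It1  (helper names start with it1_)

The first iteration, with a moving frame.  `it1_step`: `improve` with `k = 1`, `β = 3 / 4`, `bg_inner`; `ev j x = j.1 + ⟪a, x⟫` with `⟪e, a⟫ = 0` (`EJ.parts`, `InnerProductSpace.toDual`), `Trap.zero` bounds `ε j.1`,
`e' = ‖e + ε a‖⁻¹ • (e + ε a)`, `1 ≤ ‖e + ε a‖ ≤ 1 + ε ^ 2 C₀ ^ 2`, take `σ ≤ ρ ^ β / (2 C₀ ^ 2)`; `Trap.congr`, `trap_sc`, `sc_inner`.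
`it1`: by recursion unit vectors `e n` with `Trap (sc u 0 (ρ ^ n)) ⟪e n, ·⟫ 1 (σ q ^ n)`, `q = ρ ^ β` (`Mn.sc`, `fb_sc`, `sc_sc`), `cauchySeq_of_le_geometric`, `dist_le_of_le_geometric_of_tendsto`; for `0 < r ≤ 1` take `n` with `ρ ^ (n + 1) < r ≤ ρ ^ n` (`exists_nat_pow_near_of_lt_one`).
-/

set_option maxSynthPendingDepth 3

open MeasureTheory Filter Topology Set Metric
open scoped ContDiff RealInnerProductSpace NNReal

noncomputable section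

namespace Vale.Agent.P098

variable {d : ℕ}

theorem it1_unit {e a : E d} (he : ‖e‖ = 1) (ha : ⟪a, e⟫ = 0) :
    ∃ e' : E d, ‖e'‖ = 1 ∧ ‖e + a - e'‖ ≤ ‖a‖ ^ 2 := by
  have h1 : ‖e + a‖ ^ 2 = 1 + ‖a‖ ^ 2 := by
    rw [norm_add_sq_real, real_inner_comm, ha, he]
    ring
  have h0 := norm_nonneg (e + a)
  have h2 : 1 ≤ ‖e + a‖ := by nlinarith [sq_nonneg ‖a‖]
  have h3 : ‖e + a‖ ≠ 0 := by linarith
  have h5 : ‖‖e + a‖⁻¹ • (e + a)‖ = 1 := norm_smul_inv_norm (norm_ne_zero_iff.1 h3)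
  refine ⟨_, h5, ?_⟩
  have h4 : e + a - ‖e + a‖⁻¹ • (e + a) = (‖e + a‖ - 1) • ‖e + a‖⁻¹ • (e + a) := by
    rw [sub_smul, one_smul, smul_inv_smul₀ h3]
  rw [h4, norm_smul, h5, mul_one, Real.norm_eq_abs, abs_of_nonneg (by linarith)]
  nlinarith

theorem it1_step (d : ℕ) : ∃ ρ σ C : ℝ, 0 < ρ ∧ ρ ≤ 1 / 2 ∧ 0 < σ ∧ 0 ≤ C ∧
    ∀ (u : E d → ℝ) (e : E d) (ε : ℝ), Mn u → (0 : E d) ∈ FB u → ‖e‖ = 1 → 0 < ε → ε ≤ σ →
      Trap u (fun x => ⟪e, x⟫) 1 ε → ∃ e' : E d, ‖e'‖ = 1 ∧ ‖e' - e‖ ≤ C * ε ∧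
        Trap (sc u 0 ρ) (fun x => ⟪e', x⟫) 1 (ε * ρ ^ (3 / 4 : ℝ)) := by
  obtain ⟨ρ, σ, C, hρ, hρ1, hσ, hC, h⟩ := improve d (k := 1) le_rfl (by norm_num) (β := 3 / 4)
    (by norm_num) (by norm_num)
  have hq : 0 < ρ ^ (3 / 4 : ℝ) := Real.rpow_pos_of_pos hρ _
  have hq1 : ρ ^ (3 / 4 : ℝ) ≤ 1 := Real.rpow_le_one hρ.le (by linarith) (by norm_num)
  have e1 : ρ ^ (((1 : ℕ) : ℝ) + 3 / 4) = ρ * ρ ^ (3 / 4 : ℝ) := by
    rw [Real.rpow_add hρ, Nat.cast_one, Real.rpow_one]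
  rw [e1] at h
  have hC0 : 0 < C := by linarith
  refine ⟨ρ, min σ (ρ ^ (3 / 4 : ℝ) / (2 * C ^ 2)), 2 * C, hρ, hρ1, lt_min hσ (by positivity),
    by positivity, fun u e ε hu h0 he hε hε1 ht => ?_⟩
  generalize ρ ^ (3 / 4 : ℝ) = q at hq hq1 h hε1 ⊢
  obtain ⟨j, hj, hn, h1⟩ := h e u _ ε (bg_inner hu he hε (hε1.trans (min_le_left _ _)) ht)
  have h2 : ε * (2 * C ^ 2) ≤ q := (le_div_iff₀ (by positivity)).1 (hε1.trans (min_le_right _ _))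
  obtain ⟨a, ha, ha'⟩ : ∃ a : E d, (∀ x, ⟪a, x⟫ = j.2.1 x) ∧ ‖a‖ ≤ C :=
    ⟨(InnerProductSpace.toDual ℝ (E d)).symm j.2.1, fun x => InnerProductSpace.toDual_symm_apply,
      by rw [LinearIsometryEquiv.norm_map]; exact (norm_fst_le _).trans ((norm_snd_le _).trans hn)⟩
  have h3 : ∀ x, ⟪e, x⟫ + ε * ev j x = ε * j.1 + ⟪e + ε • a, x⟫ := fun x => by
    rw [ev, hj.d2 (by norm_num), hj.d3 (by norm_num), inner_add_left, real_inner_smul_left, ha]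
    simp only [zero_apply]
    ring
  simp only [h3] at h1
  have h4 := h1.zero hρ (by fun_prop) h0
  rw [inner_zero_right, add_zero] at h4
  obtain ⟨e', h5, h6⟩ := it1_unit (a := ε • a) he
    (by rw [real_inner_smul_left, ha, (hj.parts he).1, mul_zero])
  have h7 : ‖ε • a‖ ≤ ε * C := by
    rw [norm_smul, Real.norm_of_nonneg hε.le]
    exact mul_le_mul_of_nonneg_left ha' hε.le
  have h8 : ‖e + ε • a - e'‖ ≤ ε * q / 2 := by
    have := pow_le_pow_left₀ (norm_nonneg _) h7 2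
    nlinarith [mul_le_mul_of_nonneg_left h2 hε.le]
  refine ⟨e', h5, ?_, ?_⟩
  · have h9 : e' - e = ε • a - (e + ε • a - e') := by abel
    rw [h9]
    refine (norm_sub_le _ _).trans ?_
    nlinarith [mul_le_mul_of_nonneg_left hq1 hε.le, mul_le_mul_of_nonneg_left hC hε.le]
  · rw [← sc_inner e' hρ, trap_sc hρ, mul_one]
    refine (h1.congr (δ := ε * (ρ * q) / 4 + ε * q / 2 * ρ) fun x hx => ?_).mono le_rfl
      (le_of_eq (by ring))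
    rw [add_sub_assoc, ← inner_sub_left]
    refine (abs_add_le _ _).trans (add_le_add h4 ((abs_real_inner_le_norm _ _).trans ?_))
    exact mul_le_mul h8 hx.le (norm_nonneg _) (by positivity)

theorem it1 (d : ℕ) : ∃ σ C : ℝ, 0 < σ ∧ 1 ≤ C ∧ ∀ (u : E d → ℝ) (e : E d), Mn u → (0 : E d) ∈ FB u →
    ‖e‖ = 1 → Trap u (fun x => ⟪e, x⟫) 1 σ → ∃ l : E d, ‖l‖ = 1 ∧
      ∀ r : ℝ, 0 < r → r ≤ 1 → Trap u (fun x => ⟪l, x⟫) r (C * r ^ (7 / 4 : ℝ)) := by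
  obtain ⟨ρ, σ, C, hρ, hρ1, hσ, hC, h⟩ := it1_step d
  have hq : 0 < ρ ^ (3 / 4 : ℝ) := Real.rpow_pos_of_pos hρ _
  have hq1 : ρ ^ (3 / 4 : ℝ) < 1 := Real.rpow_lt_one hρ.le (by linarith) (by norm_num)
  have e1 : ρ ^ (7 / 4 : ℝ) = ρ * ρ ^ (3 / 4 : ℝ) := by
    rw [show (7 / 4 : ℝ) = 1 + 3 / 4 by norm_num, Real.rpow_add hρ, Real.rpow_one]
  generalize ρ ^ (3 / 4 : ℝ) = q at hq hq1 h e1
  have hq2 : 0 < 1 - q := by linarith
  refine ⟨σ, max 1 ((σ + C * σ / (1 - q)) / (ρ * q)), hσ, le_max_left _ _,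
    fun u e hu h0 he ht => ?_⟩
  have key : ∀ (n : ℕ) (x : E d), ∃ y : E d,
      (‖x‖ = 1 ∧ Trap (sc u 0 (ρ ^ n)) (fun z => ⟪x, z⟫) 1 (σ * q ^ n)) →
      (‖y‖ = 1 ∧ Trap (sc u 0 (ρ ^ (n + 1))) (fun z => ⟪y, z⟫) 1 (σ * q ^ (n + 1))) ∧
        dist x y ≤ C * σ * q ^ n := by
    intro n x
    by_cases hx : ‖x‖ = 1 ∧ Trap (sc u 0 (ρ ^ n)) (fun z => ⟪x, z⟫) 1 (σ * q ^ n)
    · have hp := pow_pos hρ n
      obtain ⟨y, h1, h2, h3⟩ := h _ x _ (hu.sc 0 hp) ((fb_sc hp).2 (by simpa using h0)) hx.1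
        (by positivity) (mul_le_of_le_one_right hσ.le (pow_le_one₀ hq.le hq1.le)) hx.2
      rw [sc_sc, smul_zero, add_zero, ← pow_succ, mul_assoc, ← pow_succ] at h3
      exact ⟨y, fun _ => ⟨⟨h1, h3⟩, by rwa [dist_comm, dist_eq_norm, mul_assoc]⟩⟩
    · exact ⟨x, fun h => absurd h hx⟩
  choose f hf using key
  let s : ℕ → E d := fun n => Nat.rec e f n
  have h1 : ∀ n, ‖s n‖ = 1 ∧ Trap (sc u 0 (ρ ^ n)) (fun z => ⟪s n, z⟫) 1 (σ * q ^ n) := by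
    intro n
    induction n with
    | zero => exact ⟨he, by rwa [pow_zero, pow_zero, sc_one, mul_one]⟩
    | succ n ih => exact (hf n _ ih).1
  have h2 : ∀ n, dist (s n) (s (n + 1)) ≤ C * σ * q ^ n := fun n => (hf n _ (h1 n)).2
  obtain ⟨l, hl⟩ := cauchySeq_tendsto_of_complete (cauchySeq_of_le_geometric q _ hq1 h2)
  refine ⟨l, tendsto_nhds_unique hl.norm (by simp only [(h1 _).1]; exact tendsto_const_nhds),
    fun r hr hr1 => ?_⟩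
  obtain ⟨n, h3, h4⟩ := exists_nat_pow_near_of_lt_one hr hr1 hρ (by linarith)
  have hp := pow_pos hρ n
  have h5 := (h1 n).2
  rw [← sc_inner (s n) hp, trap_sc hp, mul_one] at h5
  have h6 := dist_le_of_le_geometric_of_tendsto q _ hq1 h2 hl n
  refine (h5.congr (δ := C * σ * q ^ n / (1 - q) * ρ ^ n) fun x hx => ?_).mono h4 ?_
  · rw [← inner_sub_left]
    refine (abs_real_inner_le_norm _ _).trans ?_
    rw [← dist_eq_norm]
    exact mul_le_mul h6 hx.le (norm_nonneg _) (by positivity)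
  · have h7 : (ρ * q) ^ (n + 1) ≤ r ^ (7 / 4 : ℝ) := by
      rw [← e1, Real.rpow_pow_comm hρ.le]
      exact Real.rpow_le_rpow (by positivity) h3.le (by norm_num)
    refine le_trans (le_of_eq ?_) (mul_le_mul (le_max_right _ _) h7 (by positivity) (by positivity))
    rw [pow_succ, mul_pow]
    field_simp

end Vale.Agent.P098
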