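import Vale.Agent.P098.D.Def

/-!
# P098 D/Step  (helper names start with step_)

Verification of `Bg` along the iteration.  Put `a = C₁ s ^ (α - β - 1) r ^ (k + β) ≤ b₀ = C₁ r ^ (k - 1 + α)` (as `r ≤ s`, `1 + β - α > 0`), `b = C b₀` from `coef_trap`, `ε = a / r`.  `fderiv_sc`, `lap_sc`, `trap_sc`, `def_grad`, `def_est`.
Needed for small `r₀` (all follow from `r ≤ s ≤ r₀`): `b₀ / r = C₁ r ^ (k - 2 + α) ≤ C₁ r₀ ^ α`; `b₀ / ε = r ^ (α - β) s ^ (1 + β - α) ≤ s ^ (1 + β - α)`; `r ^ k / ε ≤ r ^ (1 - β)`;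
`b₀ ^ 2 / r ^ 2 / ε = C₁ r ^ (k - 3 + 2 α - β) s ^ (1 + β - α) ≤ C₁ s ^ (1 + β - α)`.  So with `γ = min (min α (1 - β)) (1 + β - α) > 0` it is enough that `K r₀ ^ γ ≤ σ` and `K r₀ ^ γ ≤ 1` for a large `K`.
-/

set_option maxSynthPendingDepth 3

open MeasureTheory Filter Topology Set Metric
open scoped ContDiff RealInnerProductSpace NNReal

noncomputable section

namespace Vale.Agent.P098

variable {d : ℕ}

theorem step_small {γ η : ℝ} (hγ : 0 < γ) (hη : 0 < η) :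
    ∃ r₀ : ℝ, 0 < r₀ ∧ ∀ s : ℝ, 0 ≤ s → s ≤ r₀ → s ^ γ ≤ η := by
  refine ⟨η ^ γ⁻¹, Real.rpow_pos_of_pos hη _, fun s h0 h1 => ?_⟩
  calc s ^ γ ≤ (η ^ γ⁻¹) ^ γ := Real.rpow_le_rpow h0 h1 hγ.le
    _ = η := Real.rpow_inv_rpow hη.le hγ.ne'

theorem step_real {k : ℕ} (hk : 2 ≤ k) {α β C₁ δ : ℝ} (hβ : 0 < β) (hβα : β ≤ α) (hα : α < 1)
    (h3 : 3 + β ≤ k + 2 * α) (hC : 1 ≤ C₁) (hδ : 0 < δ) : ∃ r₀ : ℝ, 0 < r₀ ∧ r₀ ≤ 1 ∧
      ∀ r s a b : ℝ, 0 < r → r ≤ s → s ≤ r₀ → a = C₁ * s ^ (α - β - 1) * r ^ ((k : ℝ) + β) →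
        b = C₁ * r ^ ((k : ℝ) - 1 + α) → 0 < a ∧ a ≤ b ∧ r ≤ δ ∧ b ≤ δ * r ∧ b ≤ δ * (a / r) ∧
          r ^ k ≤ δ * (a / r) ∧ b ^ 2 / r ^ 2 ≤ δ * (a / r) := by
  have hC0 : 0 < C₁ := by linarith
  have hk' : (2 : ℝ) ≤ k := by exact_mod_cast hk
  obtain ⟨r₁, p1, q1⟩ := step_small (γ := α) (by linarith) (div_pos hδ hC0)
  obtain ⟨r₂, p2, q2⟩ := step_small (γ := 1 + β - α) (by linarith) (div_pos hδ hC0)
  refine ⟨min (min 1 δ) (min r₁ r₂), lt_min (lt_min one_pos hδ) (lt_min p1 p2),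
    (min_le_left _ _).trans (min_le_left _ _), fun r s a b hr hrs hs ha hb => ?_⟩
  simp only [le_min_iff] at hs
  obtain ⟨⟨s1, s2⟩, s3, s4⟩ := hs
  have hs0 : 0 < s := hr.trans_le hrs
  have hr1 : r ≤ 1 := hrs.trans s1
  have w0 : 0 < s ^ (1 + β - α) := Real.rpow_pos_of_pos hs0 _
  have w1 : s ^ (α - β - 1) = (s ^ (1 + β - α))⁻¹ := by
    rw [← Real.rpow_neg hs0.le]
    congr 1
    ring
  have w2 := q2 s hs0.le s4
  have w3 : r ^ (1 + β - α) ≤ s ^ (1 + β - α) := Real.rpow_le_rpow hr.le hrs (by linarith)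
  rw [w1] at ha
  generalize s ^ (1 + β - α) = w at w0 w2 w3 ha
  have m0 : 0 < r ^ ((k : ℝ) + β - 1) := Real.rpow_pos_of_pos hr _
  have m1 : r ^ ((k : ℝ) + β) = r ^ ((k : ℝ) + β - 1) * r := by
    rw [← Real.rpow_add_one hr.ne']
    congr 1
    ring
  have m2 : r ^ ((k : ℝ) + β) = r ^ ((k : ℝ) - 1 + α) * r ^ (1 + β - α) := by
    rw [← Real.rpow_add hr]
    congr 1
    ring
  have m3 : r ^ ((k : ℝ) - 1 + α) ≤ r ^ ((k : ℝ) + β - 1) :=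
    Real.rpow_le_rpow_of_exponent_ge hr hr1 (by linarith)
  have m4 : r ^ k ≤ r ^ ((k : ℝ) + β - 1) := by
    rw [← Real.rpow_natCast]
    exact Real.rpow_le_rpow_of_exponent_ge hr hr1 (by linarith)
  have m5 : (r ^ ((k : ℝ) - 1 + α)) ^ 2 / r ^ 2 ≤ r ^ ((k : ℝ) + β - 1) := by
    have e : (r ^ ((k : ℝ) - 1 + α)) ^ 2 / r ^ 2 = r ^ (((k : ℝ) - 1 + α) * 2 - 2) := by
      rw [Real.rpow_sub hr, Real.rpow_mul hr.le, Real.rpow_two, Real.rpow_two]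
    rw [e]
    exact Real.rpow_le_rpow_of_exponent_ge hr hr1 (by linarith)
  have m6 : r ^ ((k : ℝ) - 1 + α) ≤ δ / C₁ * r := by
    have e : r ^ (α + 1) = r ^ α * r := Real.rpow_add_one hr.ne' _
    have := q1 r hr.le (hrs.trans s3)
    calc r ^ ((k : ℝ) - 1 + α) ≤ r ^ (α + 1) := Real.rpow_le_rpow_of_exponent_ge hr hr1 (by linarith)
      _ = r ^ α * r := e
      _ ≤ δ / C₁ * r := mul_le_mul_of_nonneg_right this hr.le
  have n0 : 0 < r ^ ((k : ℝ) - 1 + α) := Real.rpow_pos_of_pos hr _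
  have e1 : a / r = C₁ * w⁻¹ * r ^ ((k : ℝ) + β - 1) := by
    rw [ha, m1, ← mul_assoc, mul_div_cancel_right₀ _ hr.ne']
  have e2 : a ≤ b := by
    rw [ha, hb, m2, mul_assoc]
    refine mul_le_mul_of_nonneg_left ?_ hC0.le
    rw [inv_mul_le_iff₀ w0, mul_comm w]
    exact mul_le_mul_of_nonneg_left w3 n0.le
  have a0 : 0 < a := by
    rw [ha]
    exact mul_pos (mul_pos hC0 (inv_pos_of_pos w0)) (Real.rpow_pos_of_pos hr _)
  rw [e1]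
  generalize r ^ ((k : ℝ) + β - 1) = m at m0 m3 m4 m5
  generalize r ^ ((k : ℝ) - 1 + α) = n at m3 m5 m6 n0 hb
  have key : C₁ ^ 2 * m ≤ δ * (C₁ * w⁻¹ * m) := by
    have h1 : C₁ ≤ δ * w⁻¹ := by
      rw [← div_eq_mul_inv, le_div_iff₀ w0, mul_comm]
      exact (le_div_iff₀ hC0).1 w2
    calc C₁ ^ 2 * m = C₁ * (C₁ * m) := by ring
      _ ≤ δ * w⁻¹ * (C₁ * m) := mul_le_mul_of_nonneg_right h1 (mul_pos hC0 m0).le
      _ = _ := by ring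
  have c2 : C₁ ≤ C₁ ^ 2 := by nlinarith
  have c3 : C₁ * m ≤ C₁ ^ 2 * m := mul_le_mul_of_nonneg_right c2 m0.le
  have c4 : m ≤ C₁ * m := le_mul_of_one_le_left m0.le hC
  refine ⟨a0, e2, hrs.trans s2, ?_, ?_, ?_, ?_⟩
  · rw [hb]
    calc C₁ * n ≤ C₁ * (δ / C₁ * r) := mul_le_mul_of_nonneg_left m6 hC0.le
      _ = δ * r := by field_simp
  · rw [hb]
    exact ((mul_le_mul_of_nonneg_left m3 hC0.le).trans c3).trans key
  · exact ((m4.trans c4).trans c3).trans key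
  · rw [hb, mul_pow, mul_div_assoc]
    exact (mul_le_mul_of_nonneg_left m5 (sq_nonneg _)).trans key

theorem step_fin {C₁ C δ σ r b ε t : ℝ} (hC₁ : 1 ≤ C₁) (hC : 1 ≤ C) (hδ : 0 < δ) (hε : 0 < ε)
    (hσ : (61 * C₁ * C + 220 * C ^ 2) * δ ≤ σ) (h1 : b ≤ δ * ε) (h2 : t ≤ δ * ε)
    (h3 : b ^ 2 / r ^ 2 ≤ δ * ε) :
    60 * C₁ * (C * b) + C₁ * t + 220 * (C * b) ^ 2 / r ^ 2 ≤ σ * ε := by
  have p : 0 < δ * ε := mul_pos hδ hε
  have c0 : 0 ≤ C₁ * C := by positivity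
  have c1 : C₁ ≤ C₁ * C := le_mul_of_one_le_right (by linarith) hC
  have a1 : C₁ * C * b ≤ C₁ * C * (δ * ε) := mul_le_mul_of_nonneg_left h1 c0
  have a2 : C₁ * t ≤ C₁ * C * (δ * ε) :=
    (mul_le_mul_of_nonneg_left h2 (by linarith)).trans (mul_le_mul_of_nonneg_right c1 p.le)
  have a3 : C ^ 2 * (b ^ 2 / r ^ 2) ≤ C ^ 2 * (δ * ε) := mul_le_mul_of_nonneg_left h3 (sq_nonneg _)
  have a4 := mul_le_mul_of_nonneg_right hσ hε.le
  calc _ = 60 * (C₁ * C * b) + C₁ * t + 220 * (C ^ 2 * (b ^ 2 / r ^ 2)) := by ring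
    _ ≤ 60 * (C₁ * C * (δ * ε)) + C₁ * C * (δ * ε) + 220 * (C ^ 2 * (δ * ε)) := by linarith
    _ = (61 * C₁ * C + 220 * C ^ 2) * δ * ε := by ring
    _ ≤ σ * ε := a4

theorem step_bg (d : ℕ) {k : ℕ} (hk : 2 ≤ k) {α β C₁ σ : ℝ} (hβ : 0 < β) (hβα : β ≤ α) (hα : α < 1)
    (h3 : 3 + β ≤ k + 2 * α) (hC : 1 ≤ C₁) (hσ : 0 < σ) : ∃ r₀ C : ℝ, 0 < r₀ ∧ r₀ ≤ 1 ∧ 0 ≤ C ∧
      ∀ (u : E d → ℝ) (e : E d) (B T : Jet d) (r s : ℝ), Mn u → Bk e B k C₁ → EJ e k T → 0 < r → r ≤ s →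
        s ≤ r₀ → Trap u (ev B) r (C₁ * r ^ ((k : ℝ) - 1 + α)) →
        Trap u (ev (B + T)) r (C₁ * s ^ (α - β - 1) * r ^ ((k : ℝ) + β)) →
        CB T r (C * r ^ ((k : ℝ) - 1 + α)) ∧
        Bg e (sc u 0 r) (sc (ev (B + T)) 0 r) σ (C₁ * s ^ (α - β - 1) * r ^ ((k : ℝ) + β) / r) := by
  obtain ⟨C, hC1, hc⟩ := coef_trap d
  have hC0 : 0 < C₁ := by linarith
  have K0 : 0 < 61 * C₁ * C + 220 * C ^ 2 := by positivity
  obtain ⟨δ, hδ, d1, d2⟩ : ∃ δ : ℝ, 0 < δ ∧ 16 * C₁ * δ ≤ 1 ∧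
      (61 * C₁ * C + 220 * C ^ 2) * δ ≤ σ := by
    refine ⟨min (1 / (16 * C₁)) (σ / (61 * C₁ * C + 220 * C ^ 2)), lt_min (by positivity) (by positivity),
      ?_, ?_⟩
    · rw [mul_comm, ← le_div_iff₀ (by positivity)]
      exact min_le_left _ _
    · rw [mul_comm, ← le_div_iff₀ K0]
      exact min_le_right _ _
  obtain ⟨r₀, p0, p1, hr₀⟩ := step_real hk hβ hβα hα h3 hC hδ
  refine ⟨r₀, C * C₁, p0, p1, by positivity, fun u e B T r s hu hB hT hr hrs hs t1 t2 => ?_⟩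
  obtain ⟨a0, ab, q1, q2, q3, q4, q5⟩ := hr₀ r s _ _ hr hrs hs rfl rfl
  rw [mul_assoc C]
  generalize C₁ * s ^ (α - β - 1) * r ^ ((k : ℝ) + β) = a at t2 a0 ab q3 q4 q5
  generalize C₁ * r ^ ((k : ℝ) - 1 + α) = b at t1 ab q2 q3 q5
  have hr1 : r ≤ 1 := (hrs.trans hs).trans p1
  have b0 : 0 < b := a0.trans_le ab
  have c1 : C₁ * r ≤ C₁ * δ := mul_le_mul_of_nonneg_left q1 hC0.le
  have c2 : δ ≤ C₁ * δ := le_mul_of_one_le_left hδ.le hC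
  have c3 : 16 * δ * r ≤ 1 * r := mul_le_mul_of_nonneg_right (by linarith) hr.le
  have hcb : CB T r (C * b) :=
    hc u e B T k C₁ r b hB hT.hj hr hr1 (by linarith) (by linarith) t1 (t2.mono le_rfl ab)
  have c4 : b / r ≤ δ := (div_le_iff₀ hr).2 q2
  have c5 : C * (b / r) ≤ C * δ := mul_le_mul_of_nonneg_left c4 (by linarith)
  have c6 : C₁ * δ ≤ C₁ * C * δ :=
    mul_le_mul_of_nonneg_right (le_mul_of_one_le_right hC0.le hC1) hδ.le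
  have c7 : C * δ ≤ C ^ 2 * δ := mul_le_mul_of_nonneg_right (by nlinarith) hδ.le
  have c8 : δ ≤ C * δ := le_mul_of_one_le_left hδ.le hC1
  have c9 : 61 * (C₁ * C * δ) + 220 * (C ^ 2 * δ) ≤ σ := by linarith
  have hn : ∀ x : E d, ‖x‖ ≤ 1 → ‖(0 : E d) + r • x‖ ≤ r := fun x hx => by
    rw [zero_add, norm_smul, Real.norm_of_nonneg hr.le]
    exact mul_le_of_le_one_right hr.le hx
  refine ⟨hcb, hu.sc 0 hr, hB.unit, contDiff_iff_contDiffAt.2 fun x =>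
    contDiffAt_sc (contDiff_ev _).contDiffAt, fun x => ?_, fun x hx => ?_, ?_, div_pos a0 hr, ?_,
    fun x hx h30 => ?_, ?_⟩
  · rw [lap_sc _ _ hr.ne', (hB.hj.add hT.hj).lap, mul_zero]
  · rw [fderiv_sc _ _ hr.ne']
    refine (def_grad hB hT.hj hr hr1 hcb (hn x hx)).trans ?_
    rw [show 3 * (C * b) / r = 3 * (C * (b / r)) by ring]
    linarith
  · simp only [sc, smul_zero, add_zero, ev_at_zero, Prod.fst_add, hB.c0, zero_add]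
    rw [abs_div, abs_of_pos hr]
    calc |T.1| / r ≤ C * b / r := div_le_div_of_nonneg_right hcb.1 hr.le
      _ = C * (b / r) := mul_div_assoc _ _ _
      _ ≤ σ := by linarith
  · have := div_le_div_of_nonneg_right ab hr.le
    linarith
  · rw [fderiv_sc _ _ hr.ne']
    refine (def_est hB hT hr hr1 hcb (hn x hx) ?_).trans
      (step_fin hC hC1 hδ (div_pos a0 hr) d2 q3 q4 q5)
    simp only [sc] at h30
    rw [abs_div, abs_of_pos hr, ← mul_div_assoc, div_le_div_iff_of_pos_right hr] at h30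
    have := le_mul_of_one_le_left b0.le hC1
    linarith
  · rw [trap_sc hr, mul_one, mul_div_cancel₀ _ hr.ne']
    exact t2

end Vale.Agent.P098
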