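import Vale.Agent.P098.D.Coef

/-!
# P098 D/Sum  (helper names start with sum_)

Summation of the corrections (no analysis).  With `r n = s ρ ^ n` the part of degree `i ≤ k` of `T (n + 1) - T n` has norm at most `A C₀ (r n) ^ (k + β - i) = A C₀ s ^ (k + β - i) (ρ ^ (k + β - i)) ^ n`, the ratio is at most `q = ρ ^ β < 1`; the part of degree three vanishes if `k = 2`.
`cauchySeq_of_le_geometric`, `dist_le_of_le_geometric_of_tendsto` for each of the four components, `C = A C₀ / (1 - q)`.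
-/

set_option maxSynthPendingDepth 3

open MeasureTheory Filter Topology Set Metric
open scoped ContDiff RealInnerProductSpace NNReal

noncomputable section

namespace Vale.Agent.P098

variable {d : ℕ}

lemma sum_one {F : Type*} [NormedAddCommGroup F] [CompleteSpace F] {β γ ρ s M : ℝ} (hβ : 0 < β)
    (hγ : β ≤ γ) (hρ : 0 < ρ) (hρ1 : ρ < 1) (hs : 0 < s) (hM : 0 ≤ M) (t : ℕ → F)
    (h : ∀ n, ‖t (n + 1) - t n‖ ≤ M * (s * ρ ^ n) ^ γ) :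
    ∃ S, Tendsto t atTop (𝓝 S) ∧ ∀ n, ‖t n - S‖ ≤ M / (1 - ρ ^ β) * (s * ρ ^ n) ^ γ := by
  have e : ∀ n : ℕ, (s * ρ ^ n) ^ γ = s ^ γ * (ρ ^ γ) ^ n := fun n => by
    rw [Real.mul_rpow hs.le (pow_pos hρ n).le, ← Real.rpow_natCast, ← Real.rpow_natCast,
      ← Real.rpow_mul hρ.le, ← Real.rpow_mul hρ.le, mul_comm γ]
  have q1 : ρ ^ β < 1 := Real.rpow_lt_one hρ.le hρ1 hβ
  have q2 : ρ ^ γ ≤ ρ ^ β := Real.rpow_le_rpow_of_exponent_ge hρ hρ1.le hγ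
  have hd : ∀ n, dist (t n) (t (n + 1)) ≤ M * s ^ γ * (ρ ^ γ) ^ n := fun n => by
    rw [dist_comm, dist_eq_norm, mul_assoc, ← e]
    exact h n
  obtain ⟨S, hS⟩ := cauchySeq_tendsto_of_complete
    (cauchySeq_of_le_geometric (ρ ^ γ) (M * s ^ γ) (q2.trans_lt q1) hd)
  refine ⟨S, hS, fun n => ?_⟩
  have h1 := dist_le_of_le_geometric_of_tendsto (ρ ^ γ) (M * s ^ γ) (q2.trans_lt q1) hd hS n
  rw [dist_eq_norm, mul_assoc, ← e] at h1
  refine h1.trans ?_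
  rw [div_mul_eq_mul_div]
  have p : 0 ≤ M * (s * ρ ^ n) ^ γ :=
    mul_nonneg hM (Real.rpow_nonneg (mul_pos hs (pow_pos hρ n)).le _)
  exact div_le_div_of_nonneg_left p (by linarith) (by linarith)

lemma sum_comp {F : Type*} [NormedAddCommGroup F] [NormedSpace ℝ F] [CompleteSpace F]
    {β κ ρ s A C₀ : ℝ} (i : ℕ) (hβ : 0 < β) (hκ : β + i ≤ κ) (hρ : 0 < ρ) (hρ1 : ρ < 1)
    (hs : 0 < s) (hs1 : s ≤ 1) (hA : 0 ≤ A) (t v : ℕ → F) (h0 : t 0 = 0) (hv : ∀ n, ‖v n‖ ≤ C₀)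
    (h : ∀ n, t (n + 1) = t n + (A * (s * ρ ^ n) ^ κ) • ((s * ρ ^ n)⁻¹ ^ i • v n)) :
    ∃ S, Tendsto t atTop (𝓝 S) ∧ ‖S‖ ≤ A * |C₀| / (1 - ρ ^ β) ∧
      ∀ n, ‖t n - S‖ ≤ A * |C₀| / (1 - ρ ^ β) * (s * ρ ^ n) ^ κ / (s * ρ ^ n) ^ i := by
  have r0 : ∀ n : ℕ, 0 < s * ρ ^ n := fun n => mul_pos hs (pow_pos hρ n)
  have e : ∀ n : ℕ, (s * ρ ^ n) ^ (κ - i) = (s * ρ ^ n) ^ κ / (s * ρ ^ n) ^ i := fun n => by
    rw [Real.rpow_sub (r0 n), Real.rpow_natCast]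
  have hM : 0 ≤ A * |C₀| := mul_nonneg hA (abs_nonneg _)
  have q1 : ρ ^ β < 1 := Real.rpow_lt_one hρ.le hρ1 hβ
  obtain ⟨S, h1, h2⟩ := sum_one (γ := κ - i) hβ (by linarith) hρ hρ1 hs hM t (fun n => by
    have p1 : 0 ≤ A * (s * ρ ^ n) ^ κ := mul_nonneg hA (Real.rpow_nonneg (r0 n).le _)
    have p2 : 0 ≤ (s * ρ ^ n)⁻¹ ^ i := pow_nonneg (inv_nonneg.mpr (r0 n).le) _
    rw [h n, add_sub_cancel_left, norm_smul, norm_smul, Real.norm_eq_abs, Real.norm_eq_abs,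
      abs_of_nonneg p1, abs_of_nonneg p2, e, div_eq_mul_inv, ← inv_pow]
    calc A * (s * ρ ^ n) ^ κ * ((s * ρ ^ n)⁻¹ ^ i * ‖v n‖)
        ≤ A * (s * ρ ^ n) ^ κ * ((s * ρ ^ n)⁻¹ ^ i * |C₀|) :=
          mul_le_mul_of_nonneg_left
            (mul_le_mul_of_nonneg_left ((hv n).trans (le_abs_self _)) p2) p1
      _ = _ := by ring)
  refine ⟨S, h1, ?_, fun n => ?_⟩
  · have h3 := h2 0
    rw [h0, zero_sub, norm_neg, pow_zero, mul_one] at h3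
    refine h3.trans (mul_le_of_le_one_right (div_nonneg hM (by linarith)) ?_)
    exact Real.rpow_le_one hs.le hs1 (by linarith)
  · rw [mul_div_assoc, ← e]
    exact h2 n

theorem sum_jets (d : ℕ) {k : ℕ} (hk : 2 ≤ k) (hk3 : k ≤ 3) {β ρ s A C₀ : ℝ} (hβ : 0 < β) (hρ : 0 < ρ)
    (hρ1 : ρ < 1) (hs : 0 < s) (hs1 : s ≤ 1) (hA : 0 ≤ A) : ∃ C : ℝ, 0 ≤ C ∧ ∀ T j : ℕ → Jet d, T 0 = 0 →
      (∀ n, ‖j n‖ ≤ C₀) → (∀ n, k < 3 → (j n).2.2.2 = 0) →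
      (∀ n, T (n + 1) = T n + (A * (s * ρ ^ n) ^ ((k : ℝ) + β)) • js (j n) (s * ρ ^ n)⁻¹) →
      ∃ S : Jet d, Tendsto T atTop (𝓝 S) ∧ ‖S‖ ≤ C ∧
        ∀ n, CB (T n - S) (s * ρ ^ n) (C * (s * ρ ^ n) ^ ((k : ℝ) + β)) := by
  have q1 : ρ ^ β < 1 := Real.rpow_lt_one hρ.le hρ1 hβ
  have hC : 0 ≤ A * |C₀| / (1 - ρ ^ β) := div_nonneg (mul_nonneg hA (abs_nonneg _)) (by linarith)
  have hk' : (2 : ℝ) ≤ k := by exact_mod_cast hk
  refine ⟨_, hC, fun T j h0 hj h3 hT => ?_⟩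
  obtain ⟨S0, a0, b0, c0⟩ := sum_comp (κ := (k : ℝ) + β) (C₀ := C₀) 0 hβ (by push_cast; linarith) hρ hρ1
    hs hs1 hA (fun n => (T n).1) (fun n => (j n).1) (by rw [h0]; rfl)
    (fun n => (jet_le (j n)).1.trans (hj n)) (fun n => by rw [hT n, pow_zero, one_smul]; rfl)
  obtain ⟨S1, a1, b1, c1⟩ := sum_comp (κ := (k : ℝ) + β) (C₀ := C₀) 1 hβ (by push_cast; linarith) hρ hρ1
    hs hs1 hA (fun n => (T n).2.1) (fun n => (j n).2.1) (by rw [h0]; rfl)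
    (fun n => (jet_le (j n)).2.1.trans (hj n)) (fun n => by rw [hT n, pow_one]; rfl)
  obtain ⟨S2, a2, b2, c2⟩ := sum_comp (κ := (k : ℝ) + β) (C₀ := C₀) 2 hβ (by push_cast; linarith) hρ hρ1
    hs hs1 hA (fun n => (T n).2.2.1) (fun n => (j n).2.2.1) (by rw [h0]; rfl)
    (fun n => (jet_le (j n)).2.2.1.trans (hj n)) (fun n => by rw [hT n]; rfl)
  have H : ∃ S, Tendsto (fun n => (T n).2.2.2) atTop (𝓝 S) ∧ ‖S‖ ≤ A * |C₀| / (1 - ρ ^ β) ∧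
      ∀ n, ‖(T n).2.2.2 - S‖ ≤
        A * |C₀| / (1 - ρ ^ β) * (s * ρ ^ n) ^ ((k : ℝ) + β) / (s * ρ ^ n) ^ 3 := by
    by_cases h : k < 3
    · have hz : ∀ n, (T n).2.2.2 = 0 := by
        intro n
        induction n with
        | zero => rw [h0]; rfl
        | succ n ih =>
          have e : (T (n + 1)).2.2.2 = (T n).2.2.2 + (A * (s * ρ ^ n) ^ ((k : ℝ) + β)) •
              ((s * ρ ^ n)⁻¹ ^ 3 • (j n).2.2.2) := by rw [hT n]; rfl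
          rw [e, ih, h3 n h, smul_zero, smul_zero, add_zero]
      refine ⟨0, ?_, by rw [norm_zero]; exact hC, fun n => ?_⟩
      · rw [funext hz]
        exact tendsto_const_nhds
      · have r0 : 0 < s * ρ ^ n := mul_pos hs (pow_pos hρ n)
        rw [hz n, sub_zero, norm_zero]
        exact div_nonneg (mul_nonneg hC (Real.rpow_nonneg r0.le _)) (pow_nonneg r0.le _)
    · have hk4 : (3 : ℝ) ≤ k := by exact_mod_cast not_lt.mp h
      exact sum_comp (κ := (k : ℝ) + β) (C₀ := C₀) 3 hβ (by push_cast; linarith) hρ hρ1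
        hs hs1 hA (fun n => (T n).2.2.2) (fun n => (j n).2.2.2) (by rw [h0]; rfl)
        (fun n => (jet_le (j n)).2.2.2.trans (hj n)) (fun n => by rw [hT n]; rfl)
  obtain ⟨S3, a3, b3, c3⟩ := H
  refine ⟨(S0, S1, S2, S3), a0.prodMk_nhds (a1.prodMk_nhds (a2.prodMk_nhds a3)),
    norm_jet_le b0 b1 b2 b3, fun n => ⟨?_, ?_, c2 n, c3 n⟩⟩
  · have := c0 n
    rw [pow_zero, div_one] at this
    exact this
  · have := c1 n
    rw [pow_one] at this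
    exact this

end Vale.Agent.P098
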