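import Vale.Agent.P098.D.Imp
import Vale.Agent.P098.D.Step
import Vale.Agent.P098.D.Sum

/-!
# P098 D/ItG  (helper names start with itg_)

The general iteration.  Take `ρ σ C₀` from `improve`, `r₀` from `step_bg`, `s = min r₀ r₁`, `A = C₁ s ^ (α - β - 1)`, `r n = s ρ ^ n`.  `itg_step`: `step_bg`, `improve`, `trap_sc` (`sc (ev J) 0 r x = ev J (r • x) / r`, `ev_js`, `ev_add`, `ev_smul`), `Real.mul_rpow`.
`iter_gen`: recursion from `T 0 = 0` (`A s ^ (k + β) = C₁ s ^ (k - 1 + α)`), `sum_jets`, `isClosed_EJ`; the parts of degree `i < k` of `T n` tend to zero by the `CB` bound; `abs_ev_le`, `Trap.congr`; `exists_nat_pow_near_of_lt_one` for `r / s`.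
-/

set_option maxSynthPendingDepth 3

open MeasureTheory Filter Topology Set Metric
open scoped ContDiff RealInnerProductSpace NNReal

noncomputable section

namespace Vale.Agent.P098

variable {d : ℕ}

theorem itg_step (d : ℕ) {k : ℕ} (hk : 2 ≤ k) (hk3 : k ≤ 3) {α β C₁ : ℝ} (hβ : 0 < β) (hβα : β ≤ α)
    (hα : α < 1) (h3 : 3 + β ≤ k + 2 * α) (hC : 1 ≤ C₁) : ∃ ρ r₀ C₀ C : ℝ, 0 < ρ ∧ ρ < 1 ∧ 0 < r₀ ∧ r₀ ≤ 1 ∧
      ∀ (u : E d → ℝ) (e : E d) (B T : Jet d) (r s : ℝ), Mn u → Bk e B k C₁ → EJ e k T → 0 < r → r ≤ s →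
        s ≤ r₀ → Trap u (ev B) r (C₁ * r ^ ((k : ℝ) - 1 + α)) →
        Trap u (ev (B + T)) r (C₁ * s ^ (α - β - 1) * r ^ ((k : ℝ) + β)) →
        CB T r (C * r ^ ((k : ℝ) - 1 + α)) ∧ ∃ j : Jet d, EJ e k j ∧ ‖j‖ ≤ C₀ ∧
          Trap u (ev (B + (T + (C₁ * s ^ (α - β - 1) * r ^ ((k : ℝ) + β)) • js j r⁻¹))) (r * ρ)
            (C₁ * s ^ (α - β - 1) * (r * ρ) ^ ((k : ℝ) + β)) := by
  obtain ⟨ρ, σ, C₀, ρ0, ρ1, σ0, -, himp⟩ :=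
    improve d (k := k) (by omega) hk3 hβ (hβα.trans_lt hα)
  obtain ⟨r₀, C, r0, r1, -, hst⟩ := step_bg d hk hβ hβα hα h3 hC σ0
  refine ⟨ρ, r₀, C₀, C, ρ0, by linarith, r0, r1, fun u e B T r s hu hB hT hr hrs hs t1 t2 => ?_⟩
  obtain ⟨h1, h2⟩ := hst u e B T r s hu hB hT hr hrs hs t1 t2
  obtain ⟨j, j1, j2, j3⟩ := himp _ _ _ _ h2
  refine ⟨h1, j, j1, j2, ?_⟩
  have s0 : 0 < s := hr.trans_le hrs
  rw [Real.mul_rpow hr.le ρ0.le, ← mul_assoc]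
  have a0 : 0 ≤ C₁ * s ^ (α - β - 1) * r ^ ((k : ℝ) + β) := by positivity
  generalize C₁ * s ^ (α - β - 1) * r ^ ((k : ℝ) + β) = a at j3 a0 ⊢
  have e1 : (fun x => sc (ev (B + T)) 0 r x + a / r * ev j x) =
      sc (ev (B + (T + a • js j r⁻¹))) 0 r := by
    funext x
    rw [← add_assoc, sc, sc, ev_add (B + T), ev_smul, ev_js, zero_add, smul_smul,
      inv_mul_cancel₀ hr.ne', one_smul]
    ring
  rw [e1, trap_sc hr] at j3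
  refine j3.mono le_rfl ?_
  have e2 : r * (a / r * ρ ^ ((k : ℝ) + β) / 4) = a * ρ ^ ((k : ℝ) + β) / 4 := by
    field_simp
  have a1 : 0 ≤ a * ρ ^ ((k : ℝ) + β) := by positivity
  rw [e2]
  linarith

theorem itg_zero {F : Type} [NormedAddCommGroup F] {x : ℕ → F} {y : F} {r : ℕ → ℝ} {C γ : ℝ}
    (h : Tendsto x atTop (𝓝 y)) (hr : Tendsto r atTop (𝓝 0)) (hγ : 0 < γ)
    (hb : ∀ n, ‖x n‖ ≤ C * r n ^ γ) : y = 0 := by
  have h1 := (hr.rpow_const (Or.inr hγ.le)).const_mul C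
  rw [Real.zero_rpow hγ.ne', mul_zero] at h1
  exact tendsto_nhds_unique h (squeeze_zero_norm hb h1)

theorem itg_ev {T : Jet d} {r b : ℝ} (h : CB T r b) (hr : 0 < r) {x : E d} (hx : ‖x‖ ≤ r) :
    |ev T x| ≤ 4 * b := by
  have h1 := (le_div_iff₀ hr).1 h.2.1
  have h2 := (le_div_iff₀ (pow_pos hr 2)).1 h.2.2.1
  have h3 := (le_div_iff₀ (pow_pos hr 3)).1 h.2.2.2
  linarith [abs_ev_le T hx, h.1]

theorem iter_gen (d : ℕ) {k : ℕ} (hk : 2 ≤ k) (hk3 : k ≤ 3) {α β C₁ r₁ : ℝ} (hβ : 0 < β) (hβα : β ≤ α)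
    (hα : α < 1) (h3 : 3 + β ≤ k + 2 * α) (hC : 1 ≤ C₁) (hr₁ : 0 < r₁) :
    ∃ C₂ r₂ : ℝ, 1 ≤ C₂ ∧ 0 < r₂ ∧ r₂ ≤ 1 ∧ ∀ (u : E d → ℝ) (e : E d) (B : Jet d), Mn u → Bk e B k C₁ →
      (∀ r : ℝ, 0 < r → r ≤ r₁ → Trap u (ev B) r (C₁ * r ^ ((k : ℝ) - 1 + α))) →
      ∃ T : Jet d, EJ e k T ∧ ‖T‖ ≤ C₂ ∧ T.1 = 0 ∧ T.2.1 = 0 ∧ (k = 3 → T.2.2.1 = 0) ∧
        ∀ r : ℝ, 0 < r → r ≤ r₂ → Trap u (ev (B + T)) r (C₂ * r ^ ((k : ℝ) + β)) := by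
  obtain ⟨ρ, r₀, C₀, C, ρ0, ρ1, r0, r1, hst⟩ := itg_step d hk hk3 hβ hβα hα h3 hC
  obtain ⟨s, s0, s1, s2⟩ : ∃ s, 0 < s ∧ s ≤ r₀ ∧ s ≤ r₁ :=
    ⟨min r₀ r₁, lt_min r0 hr₁, min_le_left _ _, min_le_right _ _⟩
  obtain ⟨A, hA⟩ : ∃ A, A = C₁ * s ^ (α - β - 1) := ⟨_, rfl⟩
  have A0 : 0 ≤ A := by rw [hA]; positivity
  obtain ⟨C', C0, hsum⟩ := sum_jets d (C₀ := C₀) hk hk3 hβ ρ0 ρ1 s0 (s1.trans r1) A0
  have k2 : (2 : ℝ) ≤ k := by exact_mod_cast hk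
  have q0 : 0 < ρ ^ ((k : ℝ) + β) := by positivity
  have D0 : 0 ≤ (A + 4 * C') / ρ ^ ((k : ℝ) + β) := by positivity
  refine ⟨1 + C' + (A + 4 * C') / ρ ^ ((k : ℝ) + β), s, by linarith, s0, s1.trans r1,
    fun u e B hu hB ht => ?_⟩
  have p0 : ∀ n : ℕ, 0 < s * ρ ^ n := fun n => by positivity
  have p1 : ∀ n : ℕ, s * ρ ^ n ≤ s := fun n =>
    mul_le_of_le_one_right s0.le (pow_le_one₀ ρ0.le ρ1.le)
  have st : ∀ (n : ℕ) (T : Jet d), EJ e k T →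
      Trap u (ev (B + T)) (s * ρ ^ n) (A * (s * ρ ^ n) ^ ((k : ℝ) + β)) →
      CB T (s * ρ ^ n) (C * (s * ρ ^ n) ^ ((k : ℝ) - 1 + α)) ∧ ∃ j : Jet d, EJ e k j ∧ ‖j‖ ≤ C₀ ∧
        Trap u (ev (B + (T + (A * (s * ρ ^ n) ^ ((k : ℝ) + β)) • js j (s * ρ ^ n)⁻¹)))
          (s * ρ ^ (n + 1)) (A * (s * ρ ^ (n + 1)) ^ ((k : ℝ) + β)) := fun n T h1 h2 => by
    rw [pow_succ, ← mul_assoc, hA]
    exact hst u e B T _ s hu hB h1 (p0 n) (p1 n) s1 (ht _ (p0 n) ((p1 n).trans s2)) (hA ▸ h2)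
  choose! f f1 f2 f3 using fun n T h1 h2 => (st n T h1 h2).2
  obtain ⟨T, T0, T1⟩ : ∃ T : ℕ → Jet d, T 0 = 0 ∧ ∀ n, T (n + 1) =
      T n + (A * (s * ρ ^ n) ^ ((k : ℝ) + β)) • js (f n (T n)) (s * ρ ^ n)⁻¹ :=
    ⟨fun n => Nat.rec 0 (fun n T => T + (A * (s * ρ ^ n) ^ ((k : ℝ) + β)) •
      js (f n T) (s * ρ ^ n)⁻¹) n, rfl, fun _ => rfl⟩
  have inv : ∀ n, EJ e k (T n) ∧
      Trap u (ev (B + T n)) (s * ρ ^ n) (A * (s * ρ ^ n) ^ ((k : ℝ) + β)) := fun n => by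
    induction n with
    | zero =>
      have e1 : (k : ℝ) - 1 + α = α - β - 1 + (k + β) := by ring
      rw [T0, add_zero, pow_zero, mul_one, hA, mul_assoc, ← Real.rpow_add s0, ← e1]
      exact ⟨ej_zero e k, ht s s0 s2⟩
    | succ n ih =>
      rw [T1]
      exact ⟨ih.1.add (((f1 n _ ih.1 ih.2).js _).smul _), f3 n _ ih.1 ih.2⟩
  obtain ⟨S, S1, S2, S3⟩ := hsum T (fun n => f n (T n)) T0 (fun n => f2 n _ (inv n).1 (inv n).2)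
    (fun n => (f1 n _ (inv n).1 (inv n).2).d3) T1
  have cb := fun n => (st n _ (inv n).1 (inv n).2).1
  have lim : Tendsto (fun n : ℕ => s * ρ ^ n) atTop (𝓝 0) := by
    simpa using (tendsto_pow_atTop_nhds_zero_of_lt_one ρ0.le ρ1).const_mul s
  refine ⟨S, (isClosed_EJ e k).mem_of_tendsto S1 (Eventually.of_forall fun n => (inv n).1),
    by linarith, itg_zero S1.fst_nhds lim (by linarith) fun n => (cb n).1,
    itg_zero (C := C) (γ := (k : ℝ) - 1 + α - 1) S1.snd_nhds.fst_nhds lim (by linarith) fun n => ?_,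
    fun h => itg_zero (C := C) (γ := (k : ℝ) - 1 + α - (2 : ℕ)) S1.snd_nhds.snd_nhds.fst_nhds lim
      (by rw [h]; push_cast; linarith) fun n => ?_, fun r hr hrs => ?_⟩
  · rw [Real.rpow_sub_one (p0 n).ne', ← mul_div_assoc]
    exact (cb n).2.1
  · rw [Real.rpow_sub_natCast (p0 n).ne', ← mul_div_assoc]
    exact (cb n).2.2.1
  obtain ⟨n, n1, n2⟩ := exists_nat_pow_near_of_lt_one (div_pos hr s0) ((div_le_one s0).2 hrs) ρ0 ρ1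
  rw [lt_div_iff₀ s0, pow_succ] at n1
  rw [div_le_iff₀ s0, mul_comm] at n2
  refine ((inv n).2.congr (δ := 4 * (C' * (s * ρ ^ n) ^ ((k : ℝ) + β))) fun x hx => ?_).mono n2 ?_
  · have := itg_ev (S3 n) (p0 n) hx.le
    rw [ev_sub] at this
    rwa [ev_add, ev_add, add_sub_add_left_eq_sub]
  · have a1 : (s * ρ ^ n) ^ ((k : ℝ) + β) ≤ r ^ ((k : ℝ) + β) / ρ ^ ((k : ℝ) + β) := by
      rw [← Real.div_rpow hr.le ρ0.le]
      refine Real.rpow_le_rpow (p0 n).le ?_ (by linarith)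
      rw [le_div_iff₀ ρ0]
      linarith
    have a2 := mul_le_mul_of_nonneg_left a1 (show 0 ≤ A + 4 * C' by positivity)
    have a3 : 0 ≤ (1 + C') * r ^ ((k : ℝ) + β) := by positivity
    have a4 : (A + 4 * C') * (r ^ ((k : ℝ) + β) / ρ ^ ((k : ℝ) + β)) =
        (A + 4 * C') / ρ ^ ((k : ℝ) + β) * r ^ ((k : ℝ) + β) := by ring
    linarith

end Vale.Agent.P098
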