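import Vale.Agent.P098.D.Fam
import Vale.Agent.P098.D.Cmp

/-!
# P098 D/Lin  (helper names start with lin_)

Approximation by the linearized problem.  `lin_fix`: WLOG `δ ≤ 1`; choose `0 < s ≤ 1` with `a μ ^ 2 s ^ 2 ≤ 1 / 2`, `H` from `exists_fam` with error `δ / 3`, `M` a bound for `fderiv k`, `D2 k` on the unit ball for the finitely many smooth functions `k = h ∓ (δ / 3 + 12 bar)`, `D = {Ql ≤ 1}`,
`σ = min (σ_lo, σ_hi, s / 30)` (`Bg.mono`).  On `frontier D`: for `s ≤ ⟪e, x⟫` use the approximation; for `|⟪e, x⟫| ≤ s` use `bar_strip` (`k ≤ -1`, resp. `k ≥ 1`) and `Bg.tp`; for `⟪e, x⟫ ≤ -s` use `Bg.strip` (`P + 20 ε ≤ 0 ≤ u`), resp. `Bg.zero`.  `cmp_lo`, `cmp_hi` with `δ / 3`, `bar_small`.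
`lin`: if `d = 0` there is no unit vector; otherwise apply `lin_fix` to `bv 0` and rotate (`exists_iso`, `Bg.iso`, `lap_iso`, `iso_rf`).
-/

set_option maxSynthPendingDepth 3

open MeasureTheory Filter Topology Set Metric
open scoped ContDiff RealInnerProductSpace NNReal

noncomputable section

namespace Vale.Agent.P098

variable {d : ℕ}

theorem lin_bd {k : E d → ℝ} (hk : ContDiff ℝ ∞ k) :
    ∃ M, ∀ x, ‖x‖ ≤ 1 → ‖fderiv ℝ k x‖ ≤ M ∧ ‖D2 k x‖ ≤ M := by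
  obtain ⟨A, hA⟩ := (isCompact_closedBall (0 : E d) 1).exists_bound_of_continuousOn
    (hk.continuous_fderiv (by simp)).continuousOn
  obtain ⟨B, hB⟩ := (isCompact_closedBall (0 : E d) 1).exists_bound_of_continuousOn (f := D2 k)
    fun x _ => (contDiffAt_D2 hk.contDiffAt).continuousAt.continuousWithinAt
  exact ⟨max A B, fun x hx => ⟨(hA x (mem_closedBall_zero_iff.2 hx)).trans (le_max_left _ _),
    (hB x (mem_closedBall_zero_iff.2 hx)).trans (le_max_right _ _)⟩⟩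

theorem lin_fin {H : Set (E d → ℝ)} (hH : H.Finite) (F : (E d → ℝ) → E d → ℝ)
    (hF : ∀ h ∈ H, ContDiff ℝ ∞ (F h)) :
    ∃ M, ∀ h ∈ H, ∀ x, ‖x‖ ≤ 1 → ‖fderiv ℝ (F h) x‖ ≤ M ∧ ‖D2 (F h) x‖ ≤ M := by
  choose! M hM using fun h hh => lin_bd (hF h hh)
  obtain ⟨B, hB⟩ := (hH.image M).bddAbove
  exact ⟨B, fun h hh x hx => ⟨(hM h hh x hx).1.trans (hB (mem_image_of_mem M hh)),
    (hM h hh x hx).2.trans (hB (mem_image_of_mem M hh))⟩⟩

/-- The comparison functions. -/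
def lin_k (e : E d) (a δ t : ℝ) (h : E d → ℝ) (x : E d) : ℝ := h x + t * (δ + 12 * bar e a x)

theorem lin_k_sm (e : E d) (a δ t : ℝ) {h : E d → ℝ} (hh : ContDiff ℝ ∞ h) :
    ContDiff ℝ ∞ (lin_k e a δ t h) :=
  hh.add (contDiff_const.mul (contDiff_const.add (contDiff_const.mul (bar_contDiff e a))))

theorem lin_k_lap (e : E d) (a δ t : ℝ) {h : E d → ℝ} (hh : ContDiff ℝ ∞ h) (x : E d)
    (h0 : lap h x = 0) : lap (lin_k e a δ t h) x = t * (12 * lap (bar e a) x) := by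
  have two : (2 : WithTop ℕ∞) ≤ ∞ := WithTop.coe_le_coe.2 (le_top : (2 : ℕ∞) ≤ ⊤)
  have b : ContDiffAt ℝ 2 (bar e a) x := ((bar_contDiff e a).of_le two).contDiffAt
  have b1 : ContDiffAt ℝ 2 (fun y => 12 * bar e a y) x := contDiffAt_const.mul b
  have b2 : ContDiffAt ℝ 2 (fun y => δ + 12 * bar e a y) x := contDiffAt_const.add b1
  unfold lin_k
  rw [lap_add (hh.of_le two).contDiffAt (contDiffAt_const.mul b2), lap_const_mul t b2,
    lap_add contDiffAt_const b1, lap_const, lap_const_mul 12 b, h0, zero_add, zero_add]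

theorem lin_one {e : E d} (he : ‖e‖ = 1) {a δ : ℝ} (ha : 1 ≤ a) (hδ : 0 < δ) (hδ1 : δ ≤ 1) :
    ∃ σ : ℝ, 0 < σ ∧
    ∀ (u P : E d → ℝ) (ε : ℝ), Bg e u P σ ε → ∃ h : E d → ℝ, ContDiff ℝ ∞ h ∧ (∀ x, lap h x = 0) ∧
      (∀ x, h (rf e x) = h x) ∧ (∀ x, ‖x‖ < 1 / (4 * (4 * a + d)) → |h x| ≤ 2) ∧
      Trap u (fun x => P x + ε * h x) (1 / (4 * (4 * a + d)))
        (ε * (3 * δ + 12 * Real.exp (-(a / 2)))) := by
  have d0 : (0 : ℝ) ≤ d := Nat.cast_nonneg d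
  have a0 : 0 < a := by linarith
  have μ0 : 0 < 4 * a + d := by linarith
  obtain ⟨s, s0, s1, s2⟩ : ∃ s : ℝ, 0 < s ∧ s ≤ 1 ∧ a * (4 * a + d) ^ 2 * s ^ 2 ≤ 1 / 2 := by
    refine ⟨1 / (2 * a * (4 * a + d)), by positivity, ?_, ?_⟩
    · rw [div_le_one (by positivity)]
      nlinarith
    · rw [show a * (4 * a + d) ^ 2 * (1 / (2 * a * (4 * a + d))) ^ 2 = 1 / (4 * a) by
        field_simp
        norm_num]
      exact one_div_le_one_div_of_le two_pos (by linarith)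
  obtain ⟨H, hH, h1, h2⟩ := exists_fam he ha s0 s1 hδ hδ1
  obtain ⟨M1, hM1⟩ := lin_fin hH (lin_k e a δ (-1)) fun h hh => lin_k_sm _ _ _ _ (h1 h hh).1
  obtain ⟨M2, hM2⟩ := lin_fin hH (lin_k e a δ 1) fun h hh => lin_k_sm _ _ _ _ (h1 h hh).1
  obtain ⟨σ1, p1, c1⟩ := cmp_lo d M1 hδ hδ1
  obtain ⟨σ2, p2, c2⟩ := cmp_hi d M2 hδ hδ1
  refine ⟨min (min σ1 σ2) (s / 30), by positivity, fun u P ε hb => ?_⟩
  set σ := min (min σ1 σ2) (s / 30)
  have q1 : σ ≤ σ1 := (min_le_left _ _).trans (min_le_left _ _)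
  have q2 : σ ≤ σ2 := (min_le_left _ _).trans (min_le_right _ _)
  have q3 : σ ≤ s / 30 := min_le_right _ _
  have ε0 := hb.e0
  have ε1 := hb.e1
  obtain ⟨h, hh, ap⟩ := h2 u P σ ε hb (by linarith)
  obtain ⟨hs, hl, hv, h2⟩ := h1 h hh
  have hD := isCompact_Ql e (a := 4) (b := (4 * a + d) ^ 2) (by norm_num) (sq_nonneg _)
  have ev : ∀ t x, lin_k e a δ t h (rf e x) = lin_k e a δ t h x := fun t x => by
    simp only [lin_k, hv, bar_even he]
  have bd : ∀ t : ℝ, |t| = 1 → ∀ x, Ql e 4 ((4 * a + d) ^ 2) x ≤ 1 → |lin_k e a δ t h x| ≤ 20 :=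
    fun t ht x hx => by
      obtain ⟨r0, r1⟩ := bar_range ha hx
      refine (abs_add_le _ _).trans ?_
      rw [abs_mul, ht, abs_of_nonneg (by linarith : 0 ≤ δ + 12 * bar e a x)]
      linarith [h2 x hx]
  have lo := c1 e u P _ ε _ (hb.mono q1) hD (fun x hx => Ql_norm hx) (lin_k_sm e a δ (-1) hs)
    (ev _) (hM1 h hh) (bd _ (by simp)) (fun x hx => by
      rw [lin_k_lap _ _ _ _ hs _ (hl x)]
      linarith [bar_lap he ha hx]) fun x hx => by
      have e1 := frontier_Ql _ _ _ x hx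
      have n1 := Ql_norm e1.le
      obtain ⟨r0, -⟩ := bar_range ha e1.le
      rcases le_total s ⟪e, x⟫ with k | k
      · have k1 := (abs_le.1 (ap x e1 k)).1
        rw [le_sub_iff_add_le, le_div_iff₀ ε0] at k1
        simp only [lin_k]
        linarith [mul_nonneg ε0.le r0]
      rcases le_total (-s) ⟪e, x⟫ with k' | k'
      · have k1 := bar_strip ha e1 (abs_le.2 ⟨k', k⟩) s2
        have k2 : lin_k e a δ (-1) h x ≤ -1 := by
          simp only [lin_k]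
          linarith [(abs_le.1 (h2 x e1.le)).2]
        linarith [mul_le_mul_of_nonneg_left k2 ε0.le, (hb.tp x (by linarith)).1]
      · have k1 := (abs_le.1 (hb.strip (x := x) (by linarith))).2
        have k2 := (abs_le.1 (bd (-1) (by simp) x e1.le)).2
        linarith [mul_le_mul_of_nonneg_left k2 ε0.le, hb.mn.nn x]
  have hi := c2 e u P _ ε _ (hb.mono q2) hD (fun x hx => Ql_norm hx) (lin_k_sm e a δ 1 hs)
    (ev _) (hM2 h hh) (bd _ (by simp)) (fun x hx => by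
      rw [lin_k_lap _ _ _ _ hs _ (hl x)]
      linarith [bar_lap he ha hx]) fun x hx => by
      have e1 := frontier_Ql _ _ _ x hx
      have n1 := Ql_norm e1.le
      obtain ⟨r0, -⟩ := bar_range ha e1.le
      rcases le_total s ⟪e, x⟫ with k | k
      · have k1 := (abs_le.1 (ap x e1 k)).2
        rw [sub_le_iff_le_add, div_le_iff₀ ε0] at k1
        refine le_trans ?_ (le_max_left _ _)
        simp only [lin_k]
        linarith [mul_nonneg ε0.le r0]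
      rcases le_total (-s) ⟪e, x⟫ with k' | k'
      · have k1 := bar_strip ha e1 (abs_le.2 ⟨k', k⟩) s2
        have k2 : 1 ≤ lin_k e a δ 1 h x := by
          simp only [lin_k]
          linarith [(abs_le.1 (h2 x e1.le)).1]
        exact (hb.tp x (by linarith)).2.trans (max_le_max_right _
          (by linarith [mul_le_mul_of_nonneg_left k2 ε0.le]))
      · rw [hb.zero (x := x) (by linarith) (by linarith)]
        exact le_max_right _ _
  refine ⟨h, hs, hl, hv, fun x hx => h2 x (Ql_small he ha hx), fun x hx => ?_⟩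
  have k1 := lo x (Ql_small he ha hx)
  have k2 := hi x (Ql_small he ha hx)
  have k3 := mul_le_mul_of_nonneg_left (bar_small (e := e) ha hx) ε0.le
  simp only [lin_k] at k1 k2
  exact ⟨by linarith, k2.trans (max_le_max_right _ (by linarith))⟩

theorem lin_fix {e : E d} (he : ‖e‖ = 1) {a δ : ℝ} (ha : 1 ≤ a) (hδ : 0 < δ) : ∃ σ : ℝ, 0 < σ ∧
    ∀ (u P : E d → ℝ) (ε : ℝ), Bg e u P σ ε → ∃ h : E d → ℝ, ContDiff ℝ ∞ h ∧ (∀ x, lap h x = 0) ∧
      (∀ x, h (rf e x) = h x) ∧ (∀ x, ‖x‖ < 1 / (4 * (4 * a + d)) → |h x| ≤ 2) ∧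
      Trap u (fun x => P x + ε * h x) (1 / (4 * (4 * a + d)))
        (ε * (δ + 12 * Real.exp (-(a / 2)))) := by
  obtain ⟨σ, σ0, h⟩ := lin_one he ha (δ := min δ 1 / 3) (by positivity)
    (by linarith [min_le_right δ 1])
  refine ⟨σ, σ0, fun u P ε hb => ?_⟩
  obtain ⟨k, k1, k2, k3, k4, k5⟩ := h u P ε hb
  exact ⟨k, k1, k2, k3, k4, k5.mono le_rfl
    (mul_le_mul_of_nonneg_left (by linarith [min_le_left δ 1]) hb.e0.le)⟩

theorem lin (d : ℕ) {a δ : ℝ} (ha : 1 ≤ a) (hδ : 0 < δ) : ∃ σ : ℝ, 0 < σ ∧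
    ∀ (e : E d) (u P : E d → ℝ) (ε : ℝ), Bg e u P σ ε → ∃ h : E d → ℝ, ContDiff ℝ ∞ h ∧
      (∀ x, lap h x = 0) ∧ (∀ x, h (rf e x) = h x) ∧ (∀ x, ‖x‖ < 1 / (4 * (4 * a + d)) → |h x| ≤ 2) ∧
      Trap u (fun x => P x + ε * h x) (1 / (4 * (4 * a + d)))
        (ε * (δ + 12 * Real.exp (-(a / 2)))) := by
  rcases Nat.eq_zero_or_pos d with rfl | hd
  · exact ⟨1, one_pos, fun e u P ε hb => absurd (pos_of_unit hb.unit) (lt_irrefl _)⟩
  obtain ⟨σ, σ0, h⟩ := lin_fix (norm_bv (⟨0, hd⟩ : Fin d)) ha hδ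
  refine ⟨σ, σ0, fun e u P ε hb => ?_⟩
  obtain ⟨R, hR⟩ := exists_iso ((norm_bv (⟨0, hd⟩ : Fin d)).trans hb.unit.symm)
  have e1 : R.symm e = bv ⟨0, hd⟩ := by rw [← hR, R.symm_apply_apply]
  obtain ⟨k, k1, k2, k3, k4, k5⟩ := h _ _ ε (e1 ▸ hb.iso R)
  refine ⟨fun x => k (R.symm x), k1.comp R.symm.contDiff, fun x => (lap_iso _ _ _).trans (k2 _),
    fun x => ?_, fun x hx => k4 _ (by rwa [R.symm.norm_map]), fun x hx => ?_⟩
  · simp only [iso_rf, e1, k3]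
  · have := k5 (R.symm x) (by rwa [R.symm.norm_map])
    simpa only [R.apply_symm_apply] using this


end Vale.Agent.P098
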