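import Vale.Agent.P098.D.It1
import Vale.Agent.P098.D.ItG
import Vale.Agent.P098.D.CorrB

/-!
# P098 D/Main  (helper names start with main_)

Flatness implies an expansion of order three.  `it1`; `iter_gen` with `k = 2`, `α = 3 / 4`, `β = 1 / 2`, `B = (0, innerSL l, 0, 0)` (`bk_inner`, `ev_inner`); `corr`; the cubic term changes `ev` by at most `C₁ r ^ 3 ≤ C₁ r ^ (5 / 2)` (`Trap.congr`);
`iter_gen` with `k = 3`, `α = β = 1 / 2` and a larger constant (`Bk` is monotone in the constant).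
-/

set_option maxSynthPendingDepth 3

open MeasureTheory Filter Topology Set Metric
open scoped ContDiff RealInnerProductSpace NNReal

noncomputable section

namespace Vale.Agent.P098

variable {d : ℕ}

theorem main_bk_mono {e : E d} {B : Jet d} {k : ℕ} {C C' : ℝ} (h : Bk e B k C) (hC : C ≤ C') :
    Bk e B k C' :=
  ⟨h.unit, h.hj, h.c0, h.c1, h.le.trans hC, fun y hy => (h.df y hy).trans
    (mul_le_mul_of_nonneg_right hC (by positivity))⟩

theorem main_diff {l : E d} {T : Jet d} {K : B3 d} {C r : ℝ} (h0 : T.1 = 0) (h1 : T.2.1 = 0)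
    (h3 : T.2.2.2 = 0) (hK : ‖K‖ ≤ C) (hr : 0 < r) (hr1 : r ≤ 1) {x : E d} (hx : ‖x‖ < r) :
    |ev (((0, innerSL ℝ l, 0, 0) : Jet d) + T) x - ev ((0, innerSL ℝ l, T.2.2.1, K) : Jet d) x| ≤
      C * r ^ (5 / 2 : ℝ) := by
  have e1 : ev (((0, innerSL ℝ l, 0, 0) : Jet d) + T) x -
      ev ((0, innerSL ℝ l, T.2.2.1, K) : Jet d) x = - ev ((0, 0, 0, K) : Jet d) x := by
    rw [ev_add]
    simp only [ev, h0, h1, h3, ContinuousLinearMap.zero_apply]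
    ring
  have e2 := abs_ev_le ((0, 0, 0, K) : Jet d) hx.le
  simp only [abs_zero, norm_zero, zero_mul, zero_add] at e2
  have e3 : r ^ 3 ≤ r ^ (5 / 2 : ℝ) := by
    rw [← Real.rpow_natCast r 3]
    exact Real.rpow_le_rpow_of_exponent_ge hr hr1 (by norm_num)
  rw [e1, abs_neg]
  exact e2.trans (mul_le_mul hK e3 (by positivity) ((norm_nonneg K).trans hK))

theorem eps_reg (d : ℕ) : ∃ σ C r₀ : ℝ, 0 < σ ∧ 1 ≤ C ∧ 0 < r₀ ∧ ∀ (u : E d → ℝ) (e : E d), Mn u →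
    (0 : E d) ∈ FB u → ‖e‖ = 1 → Trap u (fun x => ⟪e, x⟫) 1 σ → Exp u C r₀ := by
  obtain ⟨σ, C, hσ, hC, H1⟩ := it1 d
  obtain ⟨C₂, r₂, hC₂, hr₂, hr₂1, H2⟩ := iter_gen d (k := 2) le_rfl (by norm_num) (α := 3 / 4)
    (β := 1 / 2) (C₁ := C) (r₁ := 1) (by norm_num) (by norm_num) (by norm_num) (by norm_num) hC
    one_pos
  obtain ⟨C₃, hC₃, H3⟩ := corr d hC₂
  obtain ⟨C₄, r₄, hC₄, hr₄, -, H4⟩ := iter_gen d (k := 3) (by norm_num) le_rfl (α := 1 / 2)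
    (β := 1 / 2) (C₁ := C₂ + C₃) (r₁ := r₂) (by norm_num) le_rfl (by norm_num) (by norm_num)
    (by linarith) hr₂
  refine ⟨σ, C₃ + C₄, r₄, hσ, by linarith, hr₄, fun u e hu h0 he ht => ?_⟩
  obtain ⟨l, hl, Hl⟩ := H1 u e hu h0 he ht
  obtain ⟨T, hT, hTC, hT0, hT1, -, HT⟩ := H2 u l ((0, innerSL ℝ l, 0, 0) : Jet d) hu
    (bk_inner hl 2 hC) (fun r hr hr1 => by
      have e1 : ev ((0, innerSL ℝ l, 0, 0) : Jet d) = fun x => ⟪l, x⟫ := funext (ev_inner l)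
      have e2 : ((2 : ℕ) : ℝ) - 1 + 3 / 4 = 7 / 4 := by norm_num
      rw [e1, e2]
      exact Hl r hr hr1)
  obtain ⟨K, hK, HK⟩ := H3 l T hl hT hTC
  obtain ⟨T', hT', hT'C, hT'0, hT'1, hT'2, HT'⟩ := H4 u l
    ((0, innerSL ℝ l, T.2.2.1, K) : Jet d) hu (main_bk_mono hK (by linarith)) (fun r hr hr1 => by
      have e2 : ((3 : ℕ) : ℝ) - 1 + 1 / 2 = 5 / 2 := by norm_num
      have e3 : ((2 : ℕ) : ℝ) + 1 / 2 = 5 / 2 := by norm_num
      have h1 := HT r hr hr1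
      rw [e3] at h1
      rw [e2, add_mul]
      exact h1.congr fun x hx => main_diff hT0 hT1 (hT.d3 (by norm_num))
        ((jet_le ((0, innerSL ℝ l, T.2.2.1, K) : Jet d)).2.2.2.trans hK.le) hr (hr1.trans hr₂1) hx)
  refine ⟨l, _, HK T' hT' hT'0 hT'1 (hT'2 rfl), (norm_add_le _ _).trans (add_le_add hK.le hT'C),
    fun r hr hr1 => ?_⟩
  have e3 : ((3 : ℕ) : ℝ) + 1 / 2 = 7 / 2 := by norm_num
  have h1 := HT' r hr hr1
  rw [e3] at h1
  exact h1.mono le_rfl (mul_le_mul_of_nonneg_right (by linarith) (by positivity))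

end Vale.Agent.P098
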